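import Vale.Agent.P263.TOP.H.BVg
import Vale.Agent.P263.S.Comm
import Vale.Agent.P263.S.GoodM
import Vale.Agent.P263.S.Gys
import Vale.Agent.P263.EX.GE5

/-!
# P263, [TW] / [H-FLAG] (helper354): classes of linear forms on `BV m` and naturality of the
polynomials under linear maps

`Lf v q : H^q(BV m) → H^(q+1)(BV m)` is the product with the class of the linear form `v`.
`PolD` collects the properties of the maps `pol m q : H^q(BV m) → S m`; `PolD.pol_lin` says that
`pol` carries the pull-back along a linear map to the substitution `sub`.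
-/

noncomputable section

namespace Vale.Agent.P263.TW

open Vale.Agent.P263.S Vale.Agent.P263.E Vale.Agent.P263.TOP.H Vale.Agent.P263.EX.GE

/-- the levelwise multiplication of functions -/
def mulB (X : SS) : Bil (SS.F (ZMod 2) X) (SS.F (ZMod 2) X) (SS.F (ZMod 2) X) where
  app p := LinearMap.mk₂ (ZMod 2) (fun f g x => f x * g x)
    (fun f f' g => by funext x; exact add_mul _ _ _)
    (fun c f g => by funext x; exact mul_assoc _ _ _)
    (fun f g g' => by funext x; exact mul_add _ _ _)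
    (fun c f g => by funext x; exact mul_left_comm _ _ _)
  nat _ _ _ := rfl

@[simp] theorem mulB_app {X : SS} {p : ℕ} (f g : (SS.F (ZMod 2) X).obj p) (x : X.obj p) :
    (mulB X).app p f g x = f x * g x := rfl

theorem mulB_flip (X : SS) : (mulB X).flip = mulB X := by
  have h : ∀ p, (mulB X).flip.app p = (mulB X).app p := by
    intro p
    refine LinearMap.ext fun f => LinearMap.ext fun g => ?_
    funext x
    exact mul_comm _ _
  unfold Bil.flip
  cases hB : mulB X with
  | mk app nat =>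
    congr 1
    funext p
    have := h p
    rw [hB] at this
    exact this

section
variable {m : ℕ}

/-- the value of a linear form -/
def dp (v x : VV m) : ZMod 2 := ∑ i, v i * x i

theorem dp_add (v x y : VV m) : dp v (x + y) = dp v x + dp v y := by
  unfold dp
  rw [← Finset.sum_add_distrib]
  exact Finset.sum_congr rfl fun i _ => mul_add _ _ _

theorem add_dp (v w x : VV m) : dp (v + w) x = dp v x + dp w x := by
  unfold dp
  rw [← Finset.sum_add_distrib]
  exact Finset.sum_congr rfl fun i _ => add_mul _ _ _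

theorem smul_dp (a : ZMod 2) (v x : VV m) : dp (a • v) x = a * dp v x := by
  unfold dp
  rw [Finset.mul_sum]
  exact Finset.sum_congr rfl fun i _ => mul_assoc _ _ _

theorem dp_single (v : VV m) (k : Fin m) : dp v (Pi.single k 1) = v k := by
  unfold dp
  rw [Finset.sum_eq_single k]
  · rw [Pi.single_eq_same, mul_one]
  · intro j _ hj
    rw [Pi.single_eq_of_ne hj, mul_zero]
  · intro h
    exact absurd (Finset.mem_univ k) h

/-- the matrix of a linear map, `mat A j k = (A e_k) j` -/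
def mat {l m : ℕ} (A : VV l →+ VV m) : Matrix (Fin m) (Fin l) (ZMod 2) :=
  fun j k => A (Pi.single k 1) j

theorem apply_eq_sum {l m : ℕ} (A : VV l →+ VV m) (x : VV l) (j : Fin m) :
    A x j = ∑ k, mat A j k * x k := by
  have h1 : A x = ∑ k, x k • A (Pi.single k 1) := by
    have h2 : x = ∑ k, x k • (Pi.single k 1 : VV l) := by
      funext i
      rw [Finset.sum_apply, Finset.sum_eq_single i]
      · rw [Pi.smul_apply, Pi.single_eq_same, smul_eq_mul, mul_one]
      · intro j _ hj
        rw [Pi.smul_apply, Pi.single_eq_of_ne hj.symm, smul_zero]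
      · intro h
        exact absurd (Finset.mem_univ i) h
    conv_lhs => rw [h2]
    rw [map_sum]
    refine Finset.sum_congr rfl fun k _ => ?_
    rcases (show x k = 0 ∨ x k = 1 by generalize x k = a; revert a; decide) with h | h
    · rw [h, zero_smul, zero_smul, map_zero]
    · rw [h, one_smul, one_smul]
  rw [h1, Finset.sum_apply]
  exact Finset.sum_congr rfl fun k _ => mul_comm _ _

theorem dp_apply {l m : ℕ} (A : VV l →+ VV m) (v : VV m) (x : VV l) :
    dp v (A x) = dp (Matrix.vecMul v (mat A)) x := by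
  unfold dp Matrix.vecMul dotProduct
  have h : ∀ i, v i * A x i = ∑ k, v i * mat A i k * x k := by
    intro i
    rw [apply_eq_sum, Finset.mul_sum]
    exact Finset.sum_congr rfl fun k _ => (mul_assoc _ _ _).symm
  rw [Finset.sum_congr rfl fun i _ => h i, Finset.sum_comm]
  exact Finset.sum_congr rfl fun k _ => (Finset.sum_mul _ _ _).symm

/-! ### the class of a linear form -/

/-- the cocycle of a linear form -/
def cc (v : VV m) : (SS.F (ZMod 2) (SS.BV m)).obj 1 := fun x => dp v (BVrep x 0 + BVrep x 1)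

theorem cc_mk (v : VV m) (s : Fin 2 → VV m) : cc v (BVmk m s) = dp v (s 0 + s 1) :=
  BVrep_mk (fun s : Fin 2 → VV m => dp v (s 0 + s 1)) (fun w s => by
    have : w + s 0 + (w + s 1) = (w + w) + (s 0 + s 1) := by abel
    rw [this, VV_add_self, zero_add]) s

theorem cc_mem_Z (v : VV m) : cc v ∈ (SS.F (ZMod 2) (SS.BV m)).Z 1 := by
  rw [CosMod.mem_Z]
  funext x
  obtain ⟨s, rfl⟩ := BVmk_surjective m x
  rw [SS.F_d]
  simp only [BV_map_mk, cc_mk, sn_two, Finset.sum_range_succ, Finset.sum_range_zero, zero_add]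
  have e0 : (dl 1 0) 0 = 1 := rfl
  have e1 : (dl 1 0) 1 = 2 := rfl
  have e2 : (dl 1 1) 0 = 0 := rfl
  have e3 : (dl 1 1) 1 = 2 := rfl
  have e4 : (dl 1 2) 0 = 0 := rfl
  have e5 : (dl 1 2) 1 = 1 := rfl
  rw [e0, e1, e2, e3, e4, e5, ← dp_add, ← dp_add]
  have : s 1 + s 2 + (s 0 + s 2) + (s 0 + s 1) = (s 0 + s 0) + (s 1 + s 1) + (s 2 + s 2) := by abel
  rw [this, VV_add_self (s 0), VV_add_self (s 1), VV_add_self (s 2)]
  show dp v (0 + 0 + 0) = 0
  unfold dp
  simp

theorem cc_add (v w : VV m) : cc (v + w) = cc v + cc w := by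
  funext x
  exact add_dp _ _ _

theorem cc_smul (a : ZMod 2) (v : VV m) : cc (a • v) = a • cc v := by
  funext x
  exact smul_dp _ _ _

/-- the class of a linear form -/
def cl1 : VV m →ₗ[ZMod 2] (SS.F (ZMod 2) (SS.BV m)).H 1 where
  toFun v := CosMod.cls _ 1 ⟨cc v, cc_mem_Z v⟩
  map_add' v w := by
    rw [← map_add]
    exact congrArg _ (Subtype.ext (cc_add v w))
  map_smul' a v := by
    rw [RingHom.id_apply, ← map_smul]
    exact congrArg _ (Subtype.ext (cc_smul a v))

theorem pull_cc {l m : ℕ} (A : VV l →+ VV m) (v : VV m) :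
    ((BVlin A).pull (R := ZMod 2)).app 1 (cc v) = cc (Matrix.vecMul v (mat A)) := by
  funext x
  obtain ⟨s, rfl⟩ := BVmk_surjective l x
  rw [SS.Map.pull_app, BVlin_mk, cc_mk, cc_mk, ← map_add, dp_apply]

theorem pull_cl1 {l m : ℕ} (A : VV l →+ VV m) (v : VV m) :
    ((BVlin A).pull (R := ZMod 2)).mapH 1 (cl1 v) = cl1 (Matrix.vecMul v (mat A)) := by
  show CosMod.cls _ 1 _ = CosMod.cls _ 1 _
  exact congrArg _ (Subtype.ext (pull_cc A v))

/-! ### the product with the class of a linear form -/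

/-- the product with the class of a linear form -/
def Lf (v : VV m) (q : ℕ) :
    (SS.F (ZMod 2) (SS.BV m)).H q →ₗ[ZMod 2] (SS.F (ZMod 2) (SS.BV m)).H (q + 1) :=
  (mulB (SS.BV m)).cupH (Nat.add_comm q 1) (cl1 v)

theorem Lf_add (v w : VV m) (q : ℕ) (z : (SS.F (ZMod 2) (SS.BV m)).H q) :
    Lf (v + w) q z = Lf v q z + Lf w q z := by
  rw [Lf, map_add, map_add]
  rfl

theorem Lf_smul (a : ZMod 2) (v : VV m) (q : ℕ) (z : (SS.F (ZMod 2) (SS.BV m)).H q) :
    Lf (a • v) q z = a • Lf v q z := by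
  rw [Lf, map_smul, map_smul]
  rfl

theorem Lf_nat {l m : ℕ} (A : VV l →+ VV m) (v : VV m) (q : ℕ)
    (z : (SS.F (ZMod 2) (SS.BV m)).H q) :
    ((BVlin A).pull (R := ZMod 2)).mapH (q + 1) (Lf v q z) =
      Lf (Matrix.vecMul v (mat A)) q (((BVlin A).pull (R := ZMod 2)).mapH q z) := by
  rw [Lf, Lf, ← pull_cl1]
  exact Bil.cupH_nat _ _ _ _ _ (fun _ _ _ => rfl) _ _ _

theorem Lf_comm (v w : VV m) (q : ℕ) (z : (SS.F (ZMod 2) (SS.BV m)).H q) :
    Lf v (q + 1) (Lf w q z) = Lf w (q + 1) (Lf v q z) := by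
  have ha : ∀ (v w : VV m), Lf v (q + 1) (Lf w q z) =
      (mulB (SS.BV m)).cupH (show q + 1 + 1 = 2 + q by omega)
        ((mulB (SS.BV m)).cupH (show 2 = 1 + 1 from rfl) (cl1 v) (cl1 w)) z := by
    intro v w
    exact (Bil.cupH_assoc (mulB _) (mulB _) (mulB _) (mulB _)
      (fun p a b c => by funext x; exact mul_assoc _ _ _) rfl (Nat.add_comm q 1) _ _ _ _ _).symm
  rw [ha v w, ha w v, Bil.cupH_comm (good_M (R := ZMod 2)) (mulB (SS.BV m)) rfl rfl (cl1 v) (cl1 w),
    mulB_flip]

/-- cochain formula for the product with a linear form -/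
theorem Lf_cls (v : VV m) (q : ℕ) (z : (SS.F (ZMod 2) (SS.BV m)).Z q) :
    ∃ h, Lf v q (CosMod.cls _ q z) = CosMod.cls _ (q + 1)
      ⟨fun x => cc v ((SS.BV m).map (fr 1 (q + 1)) x) * z.1 ((SS.BV m).map (bk q (q + 1)) x), h⟩ :=
  ⟨(mulB (SS.BV m)).cup_mem_Z (Nat.add_comm q 1) (cc_mem_Z v) z.2, rfl⟩

end

/-! ### the polynomials of the classes -/

/-- the projection `VV (m+1) → VV m` -/
def tlA (m : ℕ) : VV (m + 1) →+ VV m where
  toFun x j := x j.succ
  map_zero' := rfl
  map_add' _ _ := rfl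

theorem BVlin_tlA (m : ℕ) : BVlin (tlA m) = SS.snd SS.BC2 (SS.BV m) := by
  apply BVhom_ext
  intro p s
  rw [BVlin_mk]
  rfl

theorem vecMul_tlA (m : ℕ) (w : VV m) :
    Matrix.vecMul w (mat (tlA m)) = (Fin.cons 0 w : VV (m + 1)) := by
  funext k
  refine Fin.cases ?_ (fun k => ?_) k
  · show (∑ j, w j * mat (tlA m) j 0) = 0
    refine Finset.sum_eq_zero fun j _ => ?_
    show w j * (Pi.single (0 : Fin (m + 1)) (1 : ZMod 2) : VV (m + 1)) j.succ = 0
    rw [Pi.single_eq_of_ne (Fin.succ_ne_zero j), mul_zero]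
  · show (∑ j, w j * mat (tlA m) j k.succ) = w k
    rw [Finset.sum_eq_single k]
    · show w k * (Pi.single k.succ (1 : ZMod 2) : VV (m + 1)) k.succ = w k
      rw [Pi.single_eq_same, mul_one]
    · intro j _ hj
      show w j * (Pi.single k.succ (1 : ZMod 2) : VV (m + 1)) j.succ = 0
      rw [Pi.single_eq_of_ne (fun h => hj (Fin.succ_injective m h)), mul_zero]
    · intro h
      exact absurd (Finset.mem_univ k) h

/-- The pull-back along the projection `BV (m+1) → BV m`. -/
def pB (m q : ℕ) : (SS.F (ZMod 2) (SS.BV m)).H q →ₗ[ZMod 2] (SS.F (ZMod 2) (SS.BV (m + 1))).H q :=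
  ((SS.snd SS.BC2 (SS.BV m)).pull (R := ZMod 2)).mapH q

theorem pB_eq (m q : ℕ) (b : (SS.F (ZMod 2) (SS.BV m)).H q) :
    pB m q b = ((BVlin (tlA m)).pull (R := ZMod 2)).mapH q b := by
  rw [BVlin_tlA]
  rfl

theorem Lf_pB (m q : ℕ) (w : VV m) (b : (SS.F (ZMod 2) (SS.BV m)).H q) :
    pB m (q + 1) (Lf w q b) = Lf (Fin.cons 0 w : VV (m + 1)) q (pB m q b) := by
  rw [pB_eq, pB_eq, Lf_nat, vecMul_tlA]

/-- the first basis vector -/
def e0 (m : ℕ) : VV (m + 1) := Pi.single 0 1

/-- the properties of the polynomials of the classes of `BV m` -/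
structure PolD where
  /-- the polynomial of a class -/
  pol : ∀ m q, (SS.F (ZMod 2) (SS.BV m)).H q →ₗ[ZMod 2] S m
  pol_u : ∀ m q z, pol (m + 1) (q + 1) (Lf (e0 m) q z) = MvPolynomial.X 0 * pol (m + 1) q z
  pol_p : ∀ m q b, pol (m + 1) q (pB m q b) = MvPolynomial.rename Fin.succ (pol m q b)
  dec : ∀ m q (x : (SS.F (ZMod 2) (SS.BV (m + 1))).H (q + 1)),
    ∃ y b, x = Lf (e0 m) q y + pB m (q + 1) b
  dec0 : ∀ m (x : (SS.F (ZMod 2) (SS.BV (m + 1))).H 0), ∃ b, x = pB m 0 b
  pt_succ : ∀ q (x : (SS.F (ZMod 2) (SS.BV 0)).H (q + 1)), x = 0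

namespace PolD

variable (P : PolD)

theorem lf_cons' {m : ℕ} (v : VV (m + 1)) :
    lf v (fun i => (MvPolynomial.X i : S (m + 1))) =
      v 0 • (MvPolynomial.X 0 : S (m + 1)) +
        MvPolynomial.rename Fin.succ (lf (fun j => v j.succ) (fun i => (MvPolynomial.X i : S m))) := by
  have h : v = (Fin.cons (v 0) (fun j => v j.succ) : VV (m + 1)) := (Fin.cons_self_tail v).symm
  conv_lhs => rw [h]
  rw [lf_cons, lf_map]
  congr 2
  funext i
  exact (MvPolynomial.rename_X _ _).symm

/-- `pol` is linear over the linear forms of the base -/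
theorem pol_L_tail {m : ℕ} (w : VV m)
    (ih : ∀ q z, P.pol m (q + 1) (Lf w q z) = lf w (fun i => (MvPolynomial.X i : S m)) * P.pol m q z) :
    ∀ q z, P.pol (m + 1) (q + 1) (Lf (Fin.cons 0 w : VV (m + 1)) q z) =
      MvPolynomial.rename Fin.succ (lf w (fun i => (MvPolynomial.X i : S m))) *
        P.pol (m + 1) q z := by
  have hp : ∀ q b, P.pol (m + 1) (q + 1) (Lf (Fin.cons 0 w : VV (m + 1)) q (pB m q b)) =
      MvPolynomial.rename Fin.succ (lf w (fun i => (MvPolynomial.X i : S m))) *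
        P.pol (m + 1) q (pB m q b) := by
    intro q b
    rw [← Lf_pB, P.pol_p, P.pol_p, ih, map_mul]
  intro q
  induction q with
  | zero =>
    intro z
    obtain ⟨b, rfl⟩ := P.dec0 m z
    exact hp 0 b
  | succ q ihq =>
    intro z
    obtain ⟨y, b, rfl⟩ := P.dec m q z
    rw [map_add, map_add, map_add, mul_add, hp (q + 1) b, Lf_comm, P.pol_u, P.pol_u, ihq y,
      mul_left_comm]

/-- `pol` carries the product with a linear form to the product with the linear polynomial -/
theorem pol_L : ∀ {m : ℕ} (v : VV m) (q : ℕ) (z : (SS.F (ZMod 2) (SS.BV m)).H q),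
    P.pol m (q + 1) (Lf v q z) = lf v (fun i => (MvPolynomial.X i : S m)) * P.pol m q z := by
  intro m
  induction m with
  | zero =>
    intro v q z
    rw [P.pt_succ q (Lf v q z), map_zero]
    have : lf v (fun i => (MvPolynomial.X i : S 0)) = 0 := by
      unfold lf
      exact Finset.sum_of_isEmpty _
    rw [this, zero_mul]
  | succ m ih =>
    intro v q z
    have hv : v = v 0 • e0 m + (Fin.cons 0 (fun j => v j.succ) : VV (m + 1)) := by
      funext k
      refine Fin.cases ?_ (fun k => ?_) k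
      · show v 0 = v 0 * (Pi.single (0 : Fin (m + 1)) (1 : ZMod 2) : VV (m + 1)) 0 + 0
        rw [Pi.single_eq_same, mul_one, add_zero]
      · show v k.succ = v 0 * (Pi.single (0 : Fin (m + 1)) (1 : ZMod 2) : VV (m + 1)) k.succ +
          v k.succ
        rw [Pi.single_eq_of_ne (Fin.succ_ne_zero k), mul_zero, zero_add]
    have h1 : Lf v q z = v 0 • Lf (e0 m) q z +
        Lf (Fin.cons 0 (fun j => v j.succ) : VV (m + 1)) q z := by
      rw [← Lf_smul, ← Lf_add, ← hv]
    rw [h1, map_add, map_smul, P.pol_u, P.pol_L_tail (fun j => v j.succ)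
      (fun q z => ih (fun j => v j.succ) q z) q z, lf_cons', add_mul, smul_mul_assoc]

/-- every class of positive degree is a combination of products with linear forms -/
theorem span (P : PolD) : ∀ (m q : ℕ) (z : (SS.F (ZMod 2) (SS.BV m)).H (q + 1)),
    ∃ y : Fin m → (SS.F (ZMod 2) (SS.BV m)).H q, z = ∑ j, Lf (Pi.single j 1) q (y j) := by
  intro m
  induction m with
  | zero =>
    intro q z
    exact ⟨fun _ => 0, by rw [P.pt_succ q z]; exact (Finset.sum_of_isEmpty _).symm⟩
  | succ m ih =>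
    intro q z
    obtain ⟨y, b, rfl⟩ := P.dec m q z
    obtain ⟨w, rfl⟩ := ih q b
    refine ⟨Fin.cons y (fun j => pB m q (w j)), ?_⟩
    rw [Fin.sum_univ_succ, map_sum]
    congr 1
    refine Finset.sum_congr rfl fun j _ => ?_
    rw [Lf_pB]
    congr 2
    funext k
    refine Fin.cases ?_ (fun k => ?_) k
    · show (0 : ZMod 2) = (Pi.single j.succ (1 : ZMod 2) : VV (m + 1)) 0
      rw [Pi.single_eq_of_ne (Fin.succ_ne_zero j).symm]
    · show (Pi.single j (1 : ZMod 2) : VV m) k = (Pi.single j.succ (1 : ZMod 2) : VV (m + 1)) k.succ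
      by_cases h : k = j
      · subst h
        rw [Pi.single_eq_same, Pi.single_eq_same]
      · rw [Pi.single_eq_of_ne h, Pi.single_eq_of_ne (fun h' => h (Fin.succ_injective m h'))]

/-- the polynomials of the classes of degree zero are constant -/
theorem pol_zero_const : ∀ (m : ℕ) (z : (SS.F (ZMod 2) (SS.BV m)).H 0),
    ∃ c, P.pol m 0 z = MvPolynomial.C c := by
  intro m
  induction m with
  | zero =>
    intro z
    exact ⟨_, MvPolynomial.eq_C_of_isEmpty _⟩
  | succ m ih =>
    intro z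
    obtain ⟨b, rfl⟩ := P.dec0 m z
    obtain ⟨c, hc⟩ := ih b
    exact ⟨c, by rw [P.pol_p, hc, MvPolynomial.rename_C]⟩

/-- linear maps act trivially on the classes of degree zero -/
theorem lin_zero {m : ℕ} (A : VV m →+ VV m) (z : (SS.F (ZMod 2) (SS.BV m)).H 0) :
    ((BVlin A).pull (R := ZMod 2)).mapH 0 z = z := by
  obtain ⟨z, rfl⟩ := CosMod.cls_surjective _ 0 z
  rw [Hom.mapH_cls]
  refine congrArg _ (Subtype.ext ?_)
  funext x
  obtain ⟨s, rfl⟩ := BVmk_surjective m x
  show z.1 ((BVlin A).app (BVmk m s)) = z.1 (BVmk m s)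
  rw [BVlin_mk]
  have h : (fun i => A (s i)) = fun i : Fin 1 => (A (s 0) + s 0) + s i := by
    funext i
    have hi : i = 0 := Subsingleton.elim (α := Fin 1) i 0
    rw [hi, add_assoc, VV_add_self, add_zero]
  rw [h, BVmk_add]

/-- **Naturality of the polynomials under linear maps.** -/
theorem pol_lin {m : ℕ} (A : VV m →+ VV m) : ∀ (q : ℕ) (z : (SS.F (ZMod 2) (SS.BV m)).H q),
    P.pol m q (((BVlin A).pull (R := ZMod 2)).mapH q z) = sub (mat A) (P.pol m q z) := by
  intro q
  induction q with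
  | zero =>
    intro z
    obtain ⟨c, hc⟩ := P.pol_zero_const m z
    rw [lin_zero, hc]
    exact ((sub (mat A)).commutes c).symm
  | succ q ih =>
    intro z
    obtain ⟨y, rfl⟩ := P.span m q z
    rw [map_sum, map_sum, map_sum, map_sum]
    refine Finset.sum_congr rfl fun j _ => ?_
    rw [Lf_nat, P.pol_L, P.pol_L, ih, map_mul, sub_lf]

end PolD

end Vale.Agent.P263.TW
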