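import Vale.Agent.P263.TW.Step

/-!
# P263, block TW (helper689): the squares of `u^j P(y)`
-/

noncomputable section

namespace Vale.Agent.P263.TW

open Finset Polynomial Vale.Agent.P263.EX

theorem sum_shift {V : Type*} [AddCommMonoid V] (M i a : ℕ) (h : i + a < M) (f : ℕ → V) :
    ∑ N ∈ range M, (if i ≤ N ∧ N ≤ i + a then f (i + a - N) else 0) =
      ∑ k ∈ range (a + 1), f k := by
  rw [← Finset.sum_filter]
  refine Finset.sum_nbij' (fun N => i + a - N) (fun k => i + a - k) ?_ ?_ ?_ ?_ ?_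
  · intro N hN
    rw [mem_filter, mem_range] at hN
    rw [mem_range]; omega
  · intro k hk
    have := mem_range.mp hk
    rw [mem_filter, mem_range]; omega
  · intro N hN
    rw [mem_filter, mem_range] at hN
    omega
  · intro k hk
    have := mem_range.mp hk
    omega
  · intro N _
    rfl

theorem sum_shift' {V : Type*} [AddCommMonoid V] (M i a : ℕ) (h : i + a < M) (f : ℕ → V) :
    ∑ N ∈ range M, (if i ≤ N ∧ N ≤ i + a then f (N - i) else 0) =
      ∑ k ∈ range (a + 1), f k := by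
  rw [← Finset.sum_filter]
  refine Finset.sum_nbij' (fun N => N - i) (fun k => i + k) ?_ ?_ ?_ ?_ ?_
  · intro N hN
    rw [mem_filter, mem_range] at hN
    rw [mem_range]; omega
  · intro k hk
    have := mem_range.mp hk
    rw [mem_filter, mem_range]; omega
  · intro N hN
    rw [mem_filter, mem_range] at hN
    omega
  · intro k hk
    have := mem_range.mp hk
    omega
  · intro N _
    rfl

theorem sum_triangle {V : Type*} [AddCommMonoid V] (M : ℕ) (g : ℕ → ℕ → V) :
    ∑ N ∈ range M, ∑ i ∈ range (N + 1), g N i =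
      ∑ i ∈ range M, ∑ N ∈ range M, (if i ≤ N then g N i else 0) := by
  rw [Finset.sum_comm]
  refine Finset.sum_congr rfl fun N hN => ?_
  have := mem_range.mp hN
  rw [← Finset.sum_filter]
  refine Finset.sum_congr ?_ fun _ _ => rfl
  ext i
  rw [mem_filter, mem_range, mem_range]
  omega

namespace D2Step

variable {B X W : GrSq} (D : D2Step B X W)

open Vale.Agent.P263.TI

/-- the squares of `u^e St(y)`, `e ≥ q` -/
theorem s_stt (e q a : ℕ) (he : q ≤ e) (y : B.H q) : X.s a (D.stt e q y) =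
    ∑ N ∈ range (q + a + 1), (D.us.mu ^ (e + a - N)) (D.us.p.tot
      (∑ i ∈ range (N + 1), ((bc (e - i) (N - i) a : ℕ) : ZMod 2) •
        B.s (N - i) (B.s i (B.inc q y)))) := by
  have e1 : ∀ N ∈ range (q + a + 1), (D.us.mu ^ (e + a - N)) (D.us.p.tot
      (∑ i ∈ range (N + 1), ((bc (e - i) (N - i) a : ℕ) : ZMod 2) •
        B.s (N - i) (B.s i (B.inc q y)))) =
      ∑ i ∈ range (N + 1), (D.us.mu ^ (e + a - N)) (D.us.p.tot
        (((bc (e - i) (N - i) a : ℕ) : ZMod 2) • B.s (N - i) (B.s i (B.inc q y)))) := by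
    intro N _
    rw [map_sum, map_sum]
  rw [Finset.sum_congr rfl e1, sum_triangle, stt, map_sum,
    show q + a + 1 = (q + 1) + a by ring]
  conv_rhs => rw [Finset.sum_range_add]
  have hz : ∀ x ∈ range a, ∑ N ∈ range (q + 1 + a), (if q + 1 + x ≤ N then
      (D.us.mu ^ (e + a - N)) (D.us.p.tot (((bc (e - (q + 1 + x)) (N - (q + 1 + x)) a : ℕ) :
        ZMod 2) • B.s (N - (q + 1 + x)) (B.s (q + 1 + x) (B.inc q y)))) else 0) = 0 := by
    intro x _
    refine Finset.sum_eq_zero fun N _ => ?_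
    rw [B.s_inc_eq_zero (by omega), map_zero, smul_zero, map_zero, map_zero, ite_self]
  rw [Finset.sum_eq_zero hz, add_zero]
  refine Finset.sum_congr rfl fun i hi => ?_
  have hi' := mem_range.mp hi
  rw [D.us.s_mu_pow, ← sum_shift (q + 1 + a) i a (by omega)]
  refine Finset.sum_congr rfl fun N hN => ?_
  have hN' := mem_range.mp hN
  by_cases h1 : i ≤ N
  · rw [if_pos h1]
    by_cases h2 : N ≤ i + a
    · rw [if_pos ⟨h1, h2⟩, map_smul, map_smul, D.us.s_p]
      have hb : bc (e - i) (N - i) a = (e - i).choose (i + a - N) := by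
        unfold bc
        rw [if_pos (by omega), show a - (N - i) = i + a - N by omega]
      rw [hb, show e - i + (i + a - N) = e + a - N by omega,
        show a - (i + a - N) = N - i by omega]
    · rw [if_neg (by omega)]
      have hb : bc (e - i) (N - i) a = 0 := by
        unfold bc
        rw [if_neg (by omega)]
      rw [hb, Nat.cast_zero, zero_smul, map_zero, map_zero]
  · rw [if_neg h1, if_neg (by omega)]

/-- the other side -/
theorem sum_stt (e q a : ℕ) (he : q ≤ e) (y : B.H q) :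
    ∑ b ∈ range (a / 2 + 1), (((e - b).choose (a - 2 * b) : ℕ) : ZMod 2) •
      D.stt (e + a - b) (q + b) (B.sq q (q + b) y) =
    ∑ N ∈ range (q + a + 1), (D.us.mu ^ (e + a - N)) (D.us.p.tot
      (∑ i ∈ range (N + 1), ((bc (e - i) (2 * i) a : ℕ) : ZMod 2) •
        B.s (N - i) (B.s i (B.inc q y)))) := by
  have e1 : ∀ N ∈ range (q + a + 1), (D.us.mu ^ (e + a - N)) (D.us.p.tot
      (∑ i ∈ range (N + 1), ((bc (e - i) (2 * i) a : ℕ) : ZMod 2) •
        B.s (N - i) (B.s i (B.inc q y)))) =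
      ∑ i ∈ range (N + 1), (D.us.mu ^ (e + a - N)) (D.us.p.tot
        (((bc (e - i) (2 * i) a : ℕ) : ZMod 2) • B.s (N - i) (B.s i (B.inc q y)))) := by
    intro N _
    rw [map_sum, map_sum]
  rw [Finset.sum_congr rfl e1, sum_triangle]
  obtain ⟨r, hr⟩ : ∃ r, q + a + 1 = (a / 2 + 1) + r := ⟨q + a - a / 2, by omega⟩
  conv_rhs => rw [hr, Finset.sum_range_add]
  have hz : ∀ x ∈ range r, ∑ N ∈ range (a / 2 + 1 + r), (if a / 2 + 1 + x ≤ N then
      (D.us.mu ^ (e + a - N)) (D.us.p.tot (((bc (e - (a / 2 + 1 + x)) (2 * (a / 2 + 1 + x)) a : ℕ) :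
        ZMod 2) • B.s (N - (a / 2 + 1 + x)) (B.s (a / 2 + 1 + x) (B.inc q y)))) else 0) = 0 := by
    intro x _
    refine Finset.sum_eq_zero fun N _ => ?_
    have hb : bc (e - (a / 2 + 1 + x)) (2 * (a / 2 + 1 + x)) a = 0 := by
      unfold bc
      rw [if_neg (by omega)]
    rw [hb, Nat.cast_zero, zero_smul, map_zero, map_zero, ite_self]
  rw [Finset.sum_eq_zero hz, add_zero]
  refine Finset.sum_congr rfl fun b hb => ?_
  have hb' := mem_range.mp hb
  have hbc : bc (e - b) (2 * b) a = (e - b).choose (a - 2 * b) := by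
    unfold bc
    rw [if_pos (by omega)]
  rw [stt, Finset.smul_sum, ← sum_shift' (a / 2 + 1 + r) b (q + b) (by omega)]
  refine Finset.sum_congr rfl fun N hN => ?_
  have hN' := mem_range.mp hN
  by_cases h1 : b ≤ N
  · rw [if_pos h1]
    by_cases h2 : N ≤ b + (q + b)
    · rw [if_pos ⟨h1, h2⟩, hbc, map_smul, map_smul, ← B.s_inc,
        show e + a - b - (N - b) = e + a - N by omega]
    · rw [if_neg (by omega), B.s_inc b q y, B.s_inc_eq_zero (by omega), smul_zero, map_zero,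
        map_zero]
  · rw [if_neg h1, if_neg (by omega)]

/-- `Sq^a (u^e St(y)) = Σ_b C(e-b, a-2b) u^(e+a-b) St(Sq^b y)` -/
theorem s_stt_eq (hB : BMq B) (e q a : ℕ) (he : q ≤ e) (y : B.H q) : X.s a (D.stt e q y) =
    ∑ b ∈ range (a / 2 + 1), (((e - b).choose (a - 2 * b) : ℕ) : ZMod 2) •
      D.stt (e + a - b) (q + b) (B.sq q (q + b) y) := by
  rw [D.s_stt e q a he, D.sum_stt e q a he]
  refine Finset.sum_congr rfl fun N _ => ?_
  congr 2
  rw [← sub_eq_zero, ← Finset.sum_sub_distrib, ← R1_tot hB N q e a y he]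
  refine Finset.sum_congr rfl fun i _ => ?_
  rw [← sub_smul, Nat.cast_add]
  congr 1
  generalize ((bc (e - i) (N - i) a : ℕ) : ZMod 2) = s
  generalize ((bc (e - i) (2 * i) a : ℕ) : ZMod 2) = t
  revert s t
  decide

theorem up_eq_u (j q m : ℕ) (h : j + 2 * q = m + 1) (hj : 1 ≤ j) (y : B.H q) :
    ∃ w, D.u m w = D.up j q (m + 1) h y := by
  obtain ⟨j, rfl⟩ : ∃ k, j = k + 1 := ⟨j - 1, by omega⟩
  refine ⟨((D.mW ^ j) (W.inc (q + q) (D.P q y))) m, ?_⟩
  rw [up, pow_succ', Module.End.mul_apply, muW_succ]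

theorem rW_up (j q q' : ℕ) (h : j + 2 * q = q') (hj : 1 ≤ j) (y : B.H q) :
    D.rW.f q' (D.up j q q' h y) = 0 := by
  obtain ⟨m, rfl⟩ : ∃ m, q' = m + 1 := ⟨q' - 1, by omega⟩
  obtain ⟨w, hw⟩ := D.up_eq_u j q m h hj y
  rw [← hw, D.rW_u]

/-- **The squares of `u^j P(y)`, `j ≥ 1`.** -/
theorem sq_up (hB : BMq B) (j q q' a q'' : ℕ) (h : j + 2 * q = q') (h' : q' + a = q'')
    (hj : 1 ≤ j) (y : B.H q) : W.sq q' q'' (D.up j q q' h y) =
      ∑ b : Fin (a / 2 + 1), (((j + q - b).choose (a - 2 * b) : ℕ) : ZMod 2) •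
        D.up (j + a - 2 * b) (q + b) q'' (by have := b.2; omega) (B.sq q (q + b) y) := by
  obtain ⟨m, rfl⟩ : ∃ m, q'' = m + 1 := ⟨q'' - 1, by omega⟩
  rw [← sub_eq_zero]
  have hr : D.rW.f (m + 1) (W.sq q' (m + 1) (D.up j q q' h y) -
      ∑ b : Fin (a / 2 + 1), (((j + q - b).choose (a - 2 * b) : ℕ) : ZMod 2) •
        D.up (j + a - 2 * b) (q + b) (m + 1) (by have := b.2; omega) (B.sq q (q + b) y)) = 0 := by
    rw [map_sub, D.rW.nat, D.rW_up _ _ _ _ hj, map_zero, zero_sub, neg_eq_zero, map_sum]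
    refine Finset.sum_eq_zero fun b _ => ?_
    have := b.2
    rw [map_smul, D.rW_up _ _ _ _ (by omega), smul_zero]
  obtain ⟨w, hw⟩ := D.exW m _ hr
  rw [← hw]
  apply D.inj_u
  rw [hw]
  apply X.inc_injective (m + 1)
  rw [map_zero, ← GrMap.tot_inc, map_sub, map_sub, sub_eq_zero, ← W.s_inc' h', D.inc_up,
    D.dg.tot_s, D.dg_up_tot, D.s_stt_eq hB (j + q) q a (by omega), map_sum, map_sum,
    Fin.sum_univ_eq_sum_range (fun b => (((j + q - b).choose (a - 2 * b) : ℕ) : ZMod 2) •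
      D.stt (j + q + a - b) (q + b) (B.sq q (q + b) y)) (a / 2 + 1) |>.symm]
  refine Finset.sum_congr rfl fun b _ => ?_
  have := b.2
  rw [map_smul, map_smul, D.inc_up, D.dg_up_tot,
    show j + a - 2 * (b : ℕ) + (q + b) = j + q + a - b by omega]

end D2Step

end Vale.Agent.P263.TW
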