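import Vale.Agent.P263.TOP.H.PhiSq
import Vale.Agent.P263.S.SqF
import Vale.Agent.P263.E.KunFin
import Vale.Agent.P263.TW.SqUp

/-!
# P263, block TW (helper689): instances for simplicial sets

* `gX X : GrSq` : the cohomology of `X` with its squares, `gMap f : GrMap`;
* `usX Z : UStr (gX Z) (gX (BC2.prod Z))`;
* `stepX Z : D2Step (gX Z) (gX (BC2.prod Z)) (gX (D2 Z))` for `Z` with finite levels.
-/

noncomputable section

namespace Vale.Agent.P263.TW

open Vale.Agent.P263.S Vale.Agent.P263.E Vale.Agent.P263.E.SS Vale.Agent.P263.TOP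
open Vale.Agent.P263.TOP.H

/-- the cohomology of a simplicial set with its squares -/
abbrev gX (X : SS) : GrSq where
  H := Co X
  sq := sqX X
  sq_self := sqX_self X
  sq_lt := sqX_lt X
  sq_gt q j x h := sqX_gt X q j x (by omega)

theorem gX_sq (X : SS) (q j : ℕ) (x : Co X q) : (gX X).sq q j x = sqc X q j x := rfl

/-- the map induced by a simplicial map -/
def gMap {X Y : SS} (f : SS.Map X Y) : GrMap (gX Y) (gX X) where
  f q := (f.pull (R := ZMod 2)).mapH q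
  nat q j x := (sqX_nat f q j x).symm

theorem gMap_f {X Y : SS} (f : SS.Map X Y) (q : ℕ) (x : Co Y q) :
    (gMap f).f q x = (f.pull (R := ZMod 2)).mapH q x := rfl

theorem gX_bm (X : SS) : BMq (gX X) := fun q N k y => sqX_bm X q N k y

/-! ### the structure of `H^*(BC2 × Z)` -/

/-- the section `z ↦ ([1], z)` -/
def secZ (Z : SS) : SS.Map Z (BC2.prod Z) := ⟨fun z => (BC2.mk (fun _ => 1), z), fun _ _ => rfl⟩

theorem secZ_pull (Z : SS) :
    (secZ Z).pull = (hG.res (Act.triv C2 (SS.F (ZMod 2) Z))).comp (toT (R := ZMod 2) Z) := rfl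

theorem toT_snd (Z : SS) :
    (toT (R := ZMod 2) Z).comp (snd BC2 Z).pull = hG.pstar C2 (SS.F (ZMod 2) Z) :=
  Hom.ext fun _ _ => hG.ext fun _ => rfl

theorem secZ_mapH (Z : SS) (q : ℕ) (x : Co (BC2.prod Z) q) :
    ((secZ Z).pull (R := ZMod 2)).mapH q x =
      (hG.res (Act.triv C2 (SS.F (ZMod 2) Z))).mapH q ((toT Z).mapH q x) := by
  rw [secZ_pull, Hom.mapH_comp]

theorem secZ_snd (Z : SS) (q : ℕ) (b : Co Z q) :
    ((secZ Z).pull (R := ZMod 2)).mapH q (((snd BC2 Z).pull (R := ZMod 2)).mapH q b) = b := by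
  rw [← Hom.mapH_comp]
  exact Hom.mapH_id _ _

theorem mapH_toT_uT (Z : SS) (q : ℕ) (x : Co (BC2.prod Z) q) :
    (toT Z).mapH (q + 1) (uT Z q x) =
      uH idC (Act.triv C2 (SS.F (ZMod 2) Z)) q ((toT Z).mapH q x) := by
  rw [uT_apply, mapH_toT_ofT]

theorem mapH_toT_inj (Z : SS) (q : ℕ) :
    Function.Injective ((toT (R := ZMod 2) Z).mapH q) := fun x y h => by
  rw [← mapH_ofT_toT Z q x, h, mapH_ofT_toT]

/-- the squares of `BC2 × Z` on homotopy fixed points -/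
theorem toT_sq (Z : SS) (q j : ℕ) (x : Co (BC2.prod Z) q) :
    (toT Z).mapH j (sqX (BC2.prod Z) q j x) = sqK C2 Z q j ((toT Z).mapH q x) :=
  (Sq_nat (mulF (ZMod 2) (BC2.prod Z)) (fAlg (BC2.prod Z)).sym _ _ (toT Z) (toT Z)
    (fun _ _ _ => rfl) q j x).symm

theorem uT_inj (Z : SS) (q : ℕ) : Function.Injective (uT Z q) := by
  rw [injective_iff_map_eq_zero]
  intro x hx
  have h1 := congrArg ((toT Z).mapH (q + 1)) hx
  rw [mapH_toT_uT, map_zero] at h1
  apply mapH_toT_inj Z q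
  rw [map_zero]
  exact uH_triv_eq_zero _ h1

theorem secZ_uT (Z : SS) (q : ℕ) (x : Co (BC2.prod Z) q) :
    ((secZ Z).pull (R := ZMod 2)).mapH (q + 1) (uT Z q x) = 0 := by
  rw [secZ_mapH, mapH_toT_uT, res_uH]

theorem exists_uT (Z : SS) (q : ℕ) (x : Co (BC2.prod Z) (q + 1))
    (h : ((secZ Z).pull (R := ZMod 2)).mapH (q + 1) x = 0) : ∃ y, uT Z q y = x := by
  rw [secZ_mapH] at h
  obtain ⟨y, hy⟩ := (gys_res _ q _).1 h
  refine ⟨(ofT Z).mapH q y, ?_⟩
  apply mapH_toT_inj Z (q + 1)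
  rw [mapH_toT_uT, mapH_toT_ofT, hy]

theorem secZ_zero (Z : SS) (x : Co (BC2.prod Z) 0)
    (h : ((secZ Z).pull (R := ZMod 2)).mapH 0 x = 0) : x = 0 := by
  rw [secZ_mapH] at h
  apply mapH_toT_inj Z 0
  rw [map_zero]
  exact gys_res_zero _ _ h

theorem sqX_uT (Z : SS) (q j : ℕ) (x : Co (BC2.prod Z) q) :
    sqX (BC2.prod Z) (q + 1) (j + 2) (uT Z q x) =
      uT Z (j + 1) (sqX (BC2.prod Z) q (j + 1) x) +
        uT Z (j + 1) (uT Z j (sqX (BC2.prod Z) q j x)) := by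
  apply mapH_toT_inj Z (j + 2)
  rw [toT_sq, map_add, mapH_toT_uT, mapH_toT_uT, mapH_toT_uT, mapH_toT_uT, toT_sq, toT_sq]
  exact sqK_uH idC Z q j _

/-- `H^*(BC2 × Z) = H^*(Z)[u]` -/
def usX (Z : SS) : UStr (gX Z) (gX (BC2.prod Z)) where
  p := gMap (snd BC2 Z)
  rs q := ((secZ Z).pull (R := ZMod 2)).mapH q
  u := uT Z
  rs_p := secZ_snd Z
  rs_u := secZ_uT Z
  u_inj := uT_inj Z
  ex := exists_uT Z
  ex_zero := secZ_zero Z
  sq_u := sqX_uT Z

theorem usX_p (Z : SS) (q : ℕ) (b : Co Z q) :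
    (usX Z).p.f q b = ((snd BC2 Z).pull (R := ZMod 2)).mapH q b := rfl

theorem usX_u (Z : SS) (q : ℕ) (x : Co (BC2.prod Z) q) : (usX Z).u q x = uT Z q x := rfl

/-! ### the expansion of a class of `BC2 × Z` -/

theorem toT_p (Z : SS) (q : ℕ) (b : Co Z q) :
    (toT Z).mapH q (((snd BC2 Z).pull (R := ZMod 2)).mapH q b) =
      (hG.pstar C2 (SS.F (ZMod 2) Z)).mapH q b := by
  rw [← Hom.mapH_comp, toT_snd]

/-- `x = Σ u^(m-j) p^*(cf_j x)` -/
theorem expand (Z : SS) (m : ℕ) (x : (hG (Act.triv C2 (SS.F (ZMod 2) Z))).H m) :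
    (gX (BC2.prod Z)).inc m ((ofT Z).mapH m x) =
      ∑ j ∈ Finset.range (m + 1), ((usX Z).mu ^ (m - j)) ((usX Z).p.tot
        ((gX Z).inc j (cf (SS.F (ZMod 2) Z) m j x))) := by
  induction m with
  | zero =>
    rw [Finset.sum_range_one, Nat.sub_zero, pow_zero, Module.End.one_apply, GrMap.tot_inc]
    congr 1
    apply mapH_toT_inj Z 0
    rw [mapH_toT_ofT, usX_p, toT_p, cf_self, ← eq_pstar_zero]
  | succ m ih =>
    rw [Finset.sum_range_succ, Nat.sub_self, pow_zero, Module.End.one_apply]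
    have e1 : ∀ j ∈ Finset.range (m + 1), ((usX Z).mu ^ (m + 1 - j)) ((usX Z).p.tot
        ((gX Z).inc j (cf (SS.F (ZMod 2) Z) (m + 1) j x))) =
        (usX Z).mu (((usX Z).mu ^ (m - j)) ((usX Z).p.tot
        ((gX Z).inc j (cf (SS.F (ZMod 2) Z) m j (divu _ m x))))) := by
      intro j hj
      have hj' := Finset.mem_range.mp hj
      rw [show m + 1 - j = m - j + 1 by omega, pow_succ', Module.End.mul_apply,
        cf_succ_ne _ (by omega)]
    rw [Finset.sum_congr rfl e1, ← map_sum, ← ih, UStr.mu_inc, GrMap.tot_inc, ← map_add]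
    congr 1
    apply mapH_toT_inj Z (m + 1)
    rw [map_add, usX_u, mapH_toT_uT, mapH_toT_ofT, mapH_toT_ofT, usX_p, toT_p, cf_self]
    exact (eq_pstar_add _ m x).trans (add_comm _ _)

/-! ### the step -/

section step

variable (Z : SS) [FinLev Z]

theorem sheet_mapH (q : ℕ) (x : Co (D2 Z) q) :
    ((sheet Z).pull (R := ZMod 2)).mapH q x =
      (hG.res (swapF (ZMod 2) Z)).mapH q ((toHG Z).mapH q x) := by
  rw [← Hom.mapH_comp]
  rfl

/-- `P(y)` -/
abbrev PZ (q : ℕ) (y : Co Z q) : Co (D2 Z) (q + q) := upZ Z 0 q (q + q) (by omega) y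

theorem exists_uZ (q : ℕ) (x : Co (D2 Z) (q + 1))
    (h : ((sheet Z).pull (R := ZMod 2)).mapH (q + 1) x = 0) : ∃ y, uZ Z q y = x := by
  rw [sheet_mapH] at h
  obtain ⟨y, hy⟩ := (gys_res _ q _).1 h
  refine ⟨(ofHG Z).mapH q y, ?_⟩
  rw [uZ_apply, mapH_toHG_ofHG, hy, mapH_ofHG_toHG]

theorem sheet_uZ (q : ℕ) (x : Co (D2 Z) q) :
    ((sheet Z).pull (R := ZMod 2)).mapH (q + 1) (uZ Z q x) = 0 := by
  rw [sheet_mapH, uZ_apply, mapH_toHG_ofHG, res_uH]

theorem uZ_PZ (q : ℕ) (y : Co Z q) :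
    uZ Z (q + q) (PZ Z q y) = upZ Z 1 q (q + q + 1) (by omega) y :=
  (upZ_succ Z 0 q (q + q) (by omega) (by omega) y).symm

theorem muW_up (j q d : ℕ) (h : j + 2 * q = d) (y : Co Z q) :
    (gX (D2 Z)).inc d (upZ Z j q d h y) =
      (muW (gX (D2 Z)) (uZ Z) ^ j) ((gX (D2 Z)).inc (q + q) (PZ Z q y)) := by
  induction j generalizing d with
  | zero =>
    obtain rfl : d = q + q := by omega
    rfl
  | succ j ih =>
    obtain ⟨e, rfl⟩ : ∃ e, d = e + 1 := ⟨d - 1, by omega⟩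
    rw [pow_succ', Module.End.mul_apply, ← ih e (by omega), muW_inc,
      upZ_succ Z j q e (by omega) h]

theorem diag_PZ (q : ℕ) (y : Co Z q) :
    ((D2.diag Z).pull (R := ZMod 2)).mapH (q + q) (PZ Z q y) =
      (ofT Z).mapH (q + q) (P (mulF (ZMod 2) Z) (Act.triv C2 (SS.F (ZMod 2) Z))
        (sym_mulF (ZMod 2) Z) y) := by
  apply mapH_toT_inj Z (q + q)
  rw [mapH_toT_ofT, diag_upZ]
  rfl

theorem dg_PZ (q : ℕ) (y : Co Z q) : (gX (BC2.prod Z)).inc (q + q)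
      (((D2.diag Z).pull (R := ZMod 2)).mapH (q + q) (PZ Z q y)) =
    ∑ i ∈ Finset.range (q + 1), ((usX Z).mu ^ (q - i)) ((usX Z).p.tot
      ((gX Z).s i ((gX Z).inc q y))) := by
  rw [diag_PZ, expand, show q + q + 1 = q + (q + 1) by ring, Finset.sum_range_add,
    Finset.sum_eq_zero, zero_add]
  · refine Finset.sum_congr rfl fun i hi => ?_
    have hi' := Finset.mem_range.mp hi
    rw [show q + q - (q + i) = q - i by omega, GrSq.s_inc]
    rfl
  · intro j hj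
    have hj' := Finset.mem_range.mp hj
    have e : cf (SS.F (ZMod 2) Z) (q + q) j (P (mulF (ZMod 2) Z)
        (Act.triv C2 (SS.F (ZMod 2) Z)) (sym_mulF (ZMod 2) Z) y) = 0 :=
      cf_P_of_lt (mulF (ZMod 2) Z) (sym_mulF _ Z) y j hj'
    rw [e, map_zero, map_zero, map_zero]

/-- the step of the tower -/
def stepX : D2Step (gX Z) (gX (BC2.prod Z)) (gX (D2 Z)) where
  us := usX Z
  dg := gMap (D2.diag Z)
  XX := gX (Z.prod Z)
  rW := gMap (sheet Z)
  u := uZ Z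
  dg_u := diag_uZ Z
  rW_u := sheet_uZ Z
  exW := exists_uZ Z
  P := PZ Z
  P_add q x y := by
    rw [uZ_PZ, uZ_PZ, uZ_PZ]
    exact upZ_add Z 1 q _ _ le_rfl x y
  dg_P := dg_PZ Z
  span m w := by
    obtain ⟨x, hx⟩ := uZspan Z m w
    refine ⟨x, ?_⟩
    rw [hx, map_sum]
    have e : ∀ i : Fin (m / 2 + 1), (gX (D2 Z)).inc (m + 1) (upZ Z (m + 1 - 2 * i) i (m + 1)
        (by have := i.2; omega) (x i)) = (muW (gX (D2 Z)) (uZ Z) ^ (m + 1 - ((i : ℕ) + i)))
          ((gX (D2 Z)).inc ((i : ℕ) + i) (PZ Z i (x i))) := by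
      intro i
      rw [muW_up, show m + 1 - 2 * (i : ℕ) = m + 1 - ((i : ℕ) + i) by omega]
    rw [Finset.sum_congr rfl fun i _ => e i]
    exact Fin.sum_univ_eq_sum_range (fun q => (muW (gX (D2 Z)) (uZ Z) ^ (m + 1 - (q + q)))
      ((gX (D2 Z)).inc (q + q) (PZ Z q (x q)))) (m / 2 + 1)

theorem stepX_up (j q d : ℕ) (h : j + 2 * q = d) (y : Co Z q) :
    upZ Z j q d h y = (stepX Z).up j q d h y := by
  apply (gX (D2 Z)).inc_injective d
  rw [muW_up, (stepX Z).inc_up]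
  rfl

end step

end Vale.Agent.P263.TW
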