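import Vale.Agent.P263.TW.Pol
import Vale.Agent.P263.TW.SqUp

/-!
# P263, block TW (helper689): the tower of section [I] from the cohomology of `BW_n`, `BV_n`

`TData` : `W n = H^*(BW_n)`, `V n = H^*(BV_n)`, `X n = H^*(BC_2 × BW_n)` with the maps between them.
`TData.tower : TI.Tower`.
-/

noncomputable section

namespace Vale.Agent.P263.TW

open Finset Vale.Agent.P263.EX.GE Vale.Agent.P263.TI

/-- the data of the tower -/
structure TData where
  /-- `H^*(BW_n)` -/
  W : ℕ → GrSq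
  /-- `H^*(BV_n)` -/
  V : ℕ → GrSq
  /-- `H^*(BC_2 × BW_n)` -/
  X : ℕ → GrSq
  vs : ∀ n, UStr (V n) (V (n + 1))
  step : ∀ n, D2Step (W n) (X n) (W (n + 1))
  rho : ∀ n, GrMap (W n) (V n)
  fx : ∀ n, GrMap (X n) (V (n + 1))
  fx_p : ∀ n q (b : (W n).H q), (fx n).f q ((step n).us.p.f q b) = (vs n).p.f q ((rho n).f q b)
  fx_u : ∀ n q (x : (X n).H q),
    (fx n).f (q + 1) ((step n).us.u q x) = (vs n).u q ((fx n).f q x)
  rho_succ : ∀ n q (w : (W (n + 1)).H q),
    (rho (n + 1)).f q w = (fx n).f q ((step n).dg.f q w)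
  bm : ∀ n, BMq (W n)
  /-- the cohomology of the point -/
  ev : (V 0).H 0 →ₗ[ZMod 2] ZMod 2
  ev_inj : Function.Injective ev
  V_pos : ∀ q, 0 < q → ∀ x : (V 0).H q, x = 0
  rho_inj : ∀ q, Function.Injective ((rho 0).f q)
  one : (W 0).H 0
  ev_one : ev ((rho 0).f 0 one) = 1
  /-- the operations `u^j P(y)` -/
  up : ∀ n j q q' : ℕ, j + 2 * q = q' → (W n).H q → (W (n + 1)).H q'
  up_eq : ∀ (n j q q' : ℕ) (h : j + 2 * q = q') (y : (W n).H q),
    up n j q q' h y = (step n).up j q q' h y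

namespace TData

variable (T : TData)

/-- `H^q(BV_0) → S 0` -/
def pol0 : ∀ q, (T.V 0).H q →ₗ[ZMod 2] S 0
  | 0 => (Algebra.linearMap (ZMod 2) (S 0)).comp T.ev
  | _ + 1 => 0

theorem pol0_zero (x : (T.V 0).H 0) : T.pol0 0 x = algebraMap (ZMod 2) (S 0) (T.ev x) := rfl

theorem pol0_hom (q : ℕ) (x : (T.V 0).H q) : (T.pol0 q x).IsHomogeneous q := by
  cases q with
  | zero => exact MvPolynomial.isHomogeneous_C _ _
  | succ q => exact MvPolynomial.isHomogeneous_zero _ _ _

theorem Sq_algebraMap (m a : ℕ) (c : ZMod 2) (ha : a ≠ 0) :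
    Sq m a (algebraMap (ZMod 2) (S m) c) = 0 := by
  rw [Sq_apply, AlgHom.commutes, Polynomial.algebraMap_apply, Polynomial.coeff_C_of_ne_zero ha]

theorem pol0_sq (q a j : ℕ) (h : q + a = j) (x : (T.V 0).H q) :
    T.pol0 j ((T.V 0).sq q j x) = Sq 0 a (T.pol0 q x) := by
  cases q with
  | zero =>
    cases a with
    | zero =>
      obtain rfl : j = 0 := by omega
      rw [(T.V 0).sq_self, Sq_zero']
    | succ a =>
      obtain ⟨i, rfl⟩ : ∃ i, j = i + 1 := ⟨a, by omega⟩
      rw [pol0_zero, Sq_algebraMap _ _ _ (Nat.succ_ne_zero a)]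
      rfl
  | succ q =>
    obtain ⟨i, rfl⟩ : ∃ i, j = i + 1 := ⟨q + a, by omega⟩
    exact (map_zero (Sq 0 a)).symm

/-- `H^q(BV_n) → S n` -/
def pol : ∀ n q, (T.V n).H q →ₗ[ZMod 2] S n
  | 0 => T.pol0
  | n + 1 => (T.vs n).polF (pol n)

theorem pol_succ (n q : ℕ) : T.pol (n + 1) q = (T.vs n).polF (T.pol n) q := rfl

theorem pol_hom (n : ℕ) : ∀ q (x : (T.V n).H q), (T.pol n q x).IsHomogeneous q := by
  induction n with
  | zero => exact T.pol0_hom
  | succ n ih =>
    intro q x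
    exact (T.vs n).polF_hom (T.pol n) ih q x

theorem pol_sq (n : ℕ) : ∀ q a j, q + a = j → ∀ x : (T.V n).H q,
    T.pol n j ((T.V n).sq q j x) = Sq n a (T.pol n q x) := by
  induction n with
  | zero => exact T.pol0_sq
  | succ n ih => exact (T.vs n).polF_sq (T.pol n) ih

/-- restriction to `V_n` -/
def r (n q : ℕ) : (T.W n).H q →ₗ[ZMod 2] S n := (T.pol n q).comp ((T.rho n).f q)

theorem r_apply (n q : ℕ) (y : (T.W n).H q) : T.r n q y = T.pol n q ((T.rho n).f q y) := rfl

theorem r_hom (n q : ℕ) (y : (T.W n).H q) : (T.r n q y).IsHomogeneous q := T.pol_hom n q _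

theorem r_sq (n a q q' : ℕ) (h : q + a = q') (y : (T.W n).H q) :
    T.r n q' ((T.W n).sq q q' y) = Sq n a (T.r n q y) := by
  rw [r_apply, (T.rho n).nat, T.pol_sq n q a q' h, r_apply]

theorem fx_mu (n : ℕ) (x : (T.X n).T) :
    (T.fx n).tot ((T.step n).us.mu x) = (T.vs n).mu ((T.fx n).tot x) := by
  funext j
  cases j with
  | zero => rw [GrMap.tot_apply, UStr.mu_zero, map_zero, UStr.mu_zero]
  | succ j => rw [GrMap.tot_apply, UStr.mu_succ, T.fx_u, UStr.mu_succ, GrMap.tot_apply]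

theorem fx_mu_pow (n k : ℕ) (x : (T.X n).T) :
    (T.fx n).tot (((T.step n).us.mu ^ k) x) = ((T.vs n).mu ^ k) ((T.fx n).tot x) := by
  induction k with
  | zero => rfl
  | succ k ih => rw [pow_succ', Module.End.mul_apply, fx_mu, ih, pow_succ', Module.End.mul_apply]

theorem fx_p_tot (n : ℕ) (b : (T.W n).T) :
    (T.fx n).tot ((T.step n).us.p.tot b) = (T.vs n).p.tot ((T.rho n).tot b) := by
  funext j
  exact T.fx_p n j (b j)

/-- the restriction of `u^j P(y)` to `BV_(n+1)` -/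
theorem rho_up (n j q q' : ℕ) (h : j + 2 * q = q') (y : (T.W n).H q) :
    (T.V (n + 1)).inc q' ((T.rho (n + 1)).f q' (T.up n j q q' h y)) =
      ∑ i ∈ range (q + 1), ((T.vs n).mu ^ (j + q - i)) ((T.vs n).p.tot
        ((T.V n).inc (q + i) ((T.rho n).f (q + i) ((T.W n).sq q (q + i) y)))) := by
  rw [T.rho_succ, ← GrMap.tot_inc, ← GrMap.tot_inc, T.up_eq, (T.step n).inc_up,
    (T.step n).dg_up_tot, D2Step.stt, map_sum]
  refine Finset.sum_congr rfl fun i _ => ?_
  rw [fx_mu_pow, fx_p_tot, (T.W n).s_inc, GrMap.tot_inc]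

theorem r_up (n j q q' : ℕ) (h : j + 2 * q = q') (y : (T.W n).H q) :
    T.r (n + 1) q' (T.up n j q q' h y) = MvPolynomial.X 0 ^ j * TI.St n (T.r n q y) := by
  have h1 := (T.vs n).polF_tot (T.pol n) (range (q + 1)) (fun i => q + i) (fun i => j + q - i)
    (fun i => (T.rho n).f (q + i) ((T.W n).sq q (q + i) y)) (N := q') (fun i hi => by
      have := mem_range.mp hi
      omega) _ (T.rho_up n j q q' h y)
  have h2 : TI.St n (T.r n q y) = F.St n q (T.r n q y) := (St_eq (T.r_hom n q y)).symm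
  rw [r_apply, pol_succ, h1, h2, F.St, Finset.mul_sum]
  refine Finset.sum_congr rfl fun i hi => ?_
  have hi' := mem_range.mp hi
  rw [← mul_assoc, ← pow_add, show j + (q - i) = j + q - i by omega]
  congr 2
  exact T.r_sq n i q (q + i) rfl y

/-- **The tower.** -/
def tower : TI.Tower where
  H n q := (T.W n).H q
  r := T.r
  r_hom := T.r_hom
  sq n _ q q' _ := (T.W n).sq q q'
  r_sq := T.r_sq
  up := T.up
  up_add n j q q' h x y hj := by
    rw [T.up_eq, T.up_eq, T.up_eq]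
    exact (T.step n).up_add j q q' h x y hj
  r_up := T.r_up
  sq_up n j q q' a q'' h h' hj := ⟨fun b => (((j + q - b).choose (a - 2 * b) : ℕ) : ZMod 2),
    fun y => by
      rw [T.up_eq, (T.step n).sq_up (T.bm n) j q q' a q'' h h' hj y]
      refine Finset.sum_congr rfl fun b _ => ?_
      rw [T.up_eq]⟩
  one := T.one
  r_one := by
    rw [T.r_apply]
    show T.pol0 0 _ = 1
    rw [pol0_zero, T.ev_one, map_one]
  r_inj q := by
    rw [injective_iff_map_eq_zero]
    intro x hx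
    apply T.rho_inj q
    rw [map_zero]
    cases q with
    | zero =>
      apply T.ev_inj
      rw [map_zero]
      have h1 : algebraMap (ZMod 2) (S 0) (T.ev ((T.rho 0).f 0 x)) = 0 := hx
      exact (MvPolynomial.C_injective (Fin 0) (ZMod 2)) (h1.trans (map_zero _).symm)
    | succ q => exact T.V_pos _ (Nat.succ_pos q) _

end TData

end Vale.Agent.P263.TW
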