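import Vale.Agent.P263.TW.BC
import Vale.Agent.P263.TW.Tower
import Vale.Agent.P263.TOP.LevelB

/-!
# P263, block TW (helper689): the tower of the spaces `BW_n`

`towerModel : TOP.TowerModel` : `T.H n q = H^q(BW_n)`, `T.sq` = the Steenrod squares (`sqc`),
`T.up = upZ` (`u^j P(y)`), `T.r` = the polynomial of the restriction to `BV_n`.
-/

noncomputable section

namespace Vale.Agent.P263.TW

open Vale.Agent.P263.S Vale.Agent.P263.E Vale.Agent.P263.E.SS Vale.Agent.P263.TOP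
open Vale.Agent.P263.TOP.H

/-! ### the point -/

theorem pt_d (p : ℕ) (c : (SS.F (ZMod 2) SS.pt).obj p) (x : SS.pt.obj (p + 1)) :
    (SS.F (ZMod 2) SS.pt).d p c x = if Even p then 0 else c () := by
  rw [SS.F_d]
  have e : ∀ i ∈ Finset.range (p + 2), sn i (c (SS.pt.map (dl p i) x)) = c () :=
    fun i _ => sn_two i _
  rw [Finset.sum_congr rfl e, Finset.sum_const, Finset.card_range, nsmul_eq_mul]
  split_ifs with h
  · obtain ⟨k, rfl⟩ := h
    rw [show k + k + 2 = 2 * (k + 1) by ring, Nat.cast_mul]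
    rw [show ((2 : ℕ) : ZMod 2) = 0 from rfl, zero_mul, zero_mul]
  · obtain ⟨k, rfl⟩ := Nat.not_even_iff_odd.1 h
    rw [show 2 * k + 1 + 2 = 2 * (k + 1) + 1 by ring, Nat.cast_add, Nat.cast_mul]
    rw [show ((2 : ℕ) : ZMod 2) = 0 from rfl, zero_mul, zero_add, Nat.cast_one, one_mul]

theorem pt_pos (q : ℕ) (hq : 0 < q) (x : Co SS.pt q) : x = 0 := by
  obtain ⟨p, rfl⟩ : ∃ p, q = p + 1 := ⟨q - 1, by omega⟩
  obtain ⟨z, rfl⟩ := CosMod.cls_surjective _ _ x
  rw [CosMod.cls_eq_zero_iff]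
  rcases Nat.even_or_odd p with h | h
  · have h1 : (SS.F (ZMod 2) SS.pt).d (p + 1) z.1 = 0 := CosMod.mem_Z.1 z.2
    have h2 : (SS.F (ZMod 2) SS.pt).d (p + 1) z.1 () = 0 := congrFun h1 ()
    have h3 := (pt_d (p + 1) z.1 ()).symm.trans h2
    rw [if_neg (Nat.not_even_iff_odd.2 h.add_one)] at h3
    have h4 : z.1 = 0 := by
      funext x
      exact h3
    rw [h4]
    exact Submodule.zero_mem _
  · rw [CosMod.mem_Bd_succ]
    refine ⟨fun _ => (z.1 : SS.pt.obj (p + 1) → ZMod 2) (), ?_⟩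
    funext x
    refine (pt_d p _ x).trans ?_
    rw [if_neg (Nat.not_even_iff_odd.2 h)]
    rfl

/-- `H^0` of the point -/
def ptEv : Co SS.pt 0 →ₗ[ZMod 2] ZMod 2 :=
  Submodule.liftQ _ (((LinearMap.proj (R := ZMod 2) (φ := fun _ : SS.pt.obj 0 => ZMod 2) ()).comp
    (Submodule.subtype ((SS.F (ZMod 2) SS.pt).Z 0)))) (by
      intro z hz
      have h1 : z.1 ∈ (SS.F (ZMod 2) SS.pt).Bd 0 := hz
      have h2 := CosMod.mem_Bd_zero.1 h1
      show (z.1 : SS.pt.obj 0 → ZMod 2) () = 0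
      rw [h2]
      rfl)

theorem ptEv_cls (z : (SS.F (ZMod 2) SS.pt).Z 0) :
    ptEv ((SS.F (ZMod 2) SS.pt).cls 0 z) = (z.1 : SS.pt.obj 0 → ZMod 2) () := rfl

theorem ptEv_inj : Function.Injective ptEv := by
  rw [injective_iff_map_eq_zero]
  intro x hx
  obtain ⟨z, rfl⟩ := CosMod.cls_surjective _ _ x
  rw [ptEv_cls] at hx
  rw [CosMod.cls_eq_zero_iff]
  have h3 : z.1 = 0 := by
    funext x
    exact hx
  rw [h3]
  exact Submodule.zero_mem _

/-- the unit cocycle -/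
def ptOneZ : (SS.F (ZMod 2) SS.pt).Z 0 := ⟨(fun _ => 1 : SS.pt.obj 0 → ZMod 2), by
  show (SS.F (ZMod 2) SS.pt).d 0 (fun _ => 1 : SS.pt.obj 0 → ZMod 2) = 0
  funext x
  refine (pt_d 0 (fun _ => 1 : SS.pt.obj 0 → ZMod 2) x).trans ?_
  rw [if_pos (by decide)]
  rfl⟩

/-- the unit -/
def ptOne : Co SS.pt 0 := (SS.F (ZMod 2) SS.pt).cls 0 ptOneZ

theorem ptEv_one : ptEv ptOne = 1 := rfl

/-! ### the data -/

/-- `BC_2 × X → BC_2 × Y` -/
def bcMap {X Y : SS} (f : SS.Map X Y) : SS.Map (BC2.prod X) (BC2.prod Y) :=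
  pair (fst BC2 X) (f.comp (snd BC2 X))

theorem toT_bcMap {X Y : SS} (f : SS.Map X Y) (j : ℕ) (y : Co (BC2.prod Y) j) :
    (toT X).mapH j (((bcMap f).pull (R := ZMod 2)).mapH j y) =
      (trivMap (f.pull (R := ZMod 2))).mapH j ((toT Y).mapH j y) := by
  have e : (toT (R := ZMod 2) X).comp (bcMap f).pull =
      (trivMap (f.pull (R := ZMod 2))).comp (toT Y) :=
    Hom.ext fun _ _ => hG.ext fun _ => rfl
  have e2 := congrArg (fun h => h.mapH j y) e
  simp only [Hom.mapH_comp] at e2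
  exact e2

theorem bcMap_uT {X Y : SS} (f : SS.Map X Y) (q : ℕ) (x : Co (BC2.prod Y) q) :
    ((bcMap f).pull (R := ZMod 2)).mapH (q + 1) (uT Y q x) =
      uT X q (((bcMap f).pull (R := ZMod 2)).mapH q x) := by
  apply mapH_toT_inj X (q + 1)
  rw [toT_bcMap, mapH_toT_uT, mapH_toT_uT, toT_bcMap]
  exact uH_mapHom idC (Act.triv C2 (SS.F (ZMod 2) Y)) (Act.triv C2 (SS.F (ZMod 2) X))
    (f.pull (R := ZMod 2)) (fun _ _ _ => rfl) _

theorem bcMap_snd {X Y : SS} (f : SS.Map X Y) (q : ℕ) (b : Co Y q) :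
    ((bcMap f).pull (R := ZMod 2)).mapH q (((snd BC2 Y).pull (R := ZMod 2)).mapH q b) =
      ((snd BC2 X).pull (R := ZMod 2)).mapH q ((f.pull (R := ZMod 2)).mapH q b) := by
  rw [← Hom.mapH_comp, ← Hom.mapH_comp]
  rfl

theorem pull_comp_mapH {X Y W : SS} (g : SS.Map Y W) (f : SS.Map X Y) (q : ℕ) (w : Co W q) :
    ((g.comp f).pull (R := ZMod 2)).mapH q w =
      (f.pull (R := ZMod 2)).mapH q ((g.pull (R := ZMod 2)).mapH q w) := by
  rw [← Hom.mapH_comp]
  rfl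

/-- the data of the tower -/
def data : TData where
  W n := gX (BW SS.pt n)
  V n := gX (BV n)
  X n := gX (BC2.prod (BW SS.pt n))
  vs n := usX (BV n)
  step n := stepX (BW SS.pt n)
  rho n := gMap (BV.dn n)
  fx n := gMap (bcMap (BV.dn n))
  fx_p n q b := bcMap_snd (BV.dn n) q b
  fx_u n q x := bcMap_uT (BV.dn n) q x
  rho_succ n q w := pull_comp_mapH (D2.diag (BW SS.pt n)) (bcMap (BV.dn n)) q w
  bm n := gX_bm (BW SS.pt n)
  ev := ptEv
  ev_inj := ptEv_inj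
  V_pos := pt_pos
  rho_inj q x y h := by
    have e : ∀ z, (gMap (BV.dn 0)).f q z = z := fun z => Hom.mapH_id _ z
    rwa [e, e] at h
  one := ptOne
  ev_one := by
    have e : (gMap (BV.dn 0)).f 0 ptOne = ptOne := Hom.mapH_id _ _
    rw [e]
    exact ptEv_one
  up n j q q' h y := upZ (BW SS.pt n) j q q' h y
  up_eq n j q q' h y := stepX_up (BW SS.pt n) j q q' h y

/-- **The tower of the spaces `BW_n`.** -/
def towerModel : TowerModel where
  T := data.tower
  e _ _ := LinearEquiv.refl (ZMod 2) _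

theorem towerModel_sq (n a q q' : ℕ) (h : q + a = q') (y : towerModel.T.H n q) :
    towerModel.e n q' (towerModel.T.sq n a q q' h y) =
      sqc (BW SS.pt n) q q' (towerModel.e n q y) := rfl

theorem towerModel_up (n j q d : ℕ) (h : j + 2 * q = d) (y : towerModel.T.H n q) :
    towerModel.e (n + 1) d (towerModel.T.up n j q d h y) =
      upZ (BW SS.pt n) j q d h (towerModel.e n q y) := rfl

theorem towerModel_r (n q : ℕ) (y : towerModel.T.H n q) :
    towerModel.T.r n q y = data.pol n q (((BV.dn n).pull (R := ZMod 2)).mapH q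
      (towerModel.e n q y)) := rfl

end Vale.Agent.P263.TW
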