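import Vale.Agent.P263.TW.Tot
import Vale.Agent.P263.TI.Alg
import Vale.Agent.P263.EX.GE4

/-!
# P263, block TW (helper689): from cohomology with `u`-structures to polynomials

`UStr.polF f` : if `X = B[u]` and `f q : H^q(B) → S m` then `polF f q : H^q(X) → S (m+1)`,
`Σ u^(q-i) p(b_i) ↦ Σ x_0^(q-i) f(b_i)`; homogeneity and compatibility with the squares.
-/

noncomputable section

namespace Vale.Agent.P263.TW

open Finset Vale.Agent.P263.EX.GE Vale.Agent.P263.TI

/-! ### algebra of the polynomial ring -/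

/-- the renaming `x_i ↦ x_(i+1)` -/
abbrev ren (m : ℕ) : S m →ₐ[ZMod 2] S (m + 1) := MvPolynomial.rename Fin.succ

theorem PS_ren (m : ℕ) (g : S m) :
    PS (m + 1) (ren m g) = (PS m g).map ((ren m : S m →ₐ[ZMod 2] S (m + 1)) : S m →+* S (m + 1)) := by
  induction g using MvPolynomial.induction_on with
  | C a =>
    have e1 : (MvPolynomial.C a : S m) = algebraMap (ZMod 2) (S m) a := rfl
    rw [e1, AlgHom.commutes, AlgHom.commutes, AlgHom.commutes]
    rw [Polynomial.algebraMap_apply, Polynomial.algebraMap_apply, Polynomial.map_C]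
    congr 1
    exact ((ren m).commutes a).symm
  | add p q hp hq => rw [map_add, map_add, map_add, hp, hq, Polynomial.map_add]
  | mul_X p i hp =>
    rw [map_mul, map_mul, map_mul, hp, Polynomial.map_mul]
    congr 1
    rw [show ren m (MvPolynomial.X i) = MvPolynomial.X i.succ from MvPolynomial.rename_X _ _,
      PS_X, PS_X, Polynomial.map_add, Polynomial.map_mul, Polynomial.map_C, Polynomial.map_C,
      Polynomial.map_X]
    have h1 : ((ren m : S m →ₐ[ZMod 2] S (m + 1)) : S m →+* S (m + 1)) (MvPolynomial.X i) =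
      MvPolynomial.X i.succ := MvPolynomial.rename_X _ _
    have h2 : ((ren m : S m →ₐ[ZMod 2] S (m + 1)) : S m →+* S (m + 1)) (MvPolynomial.X i ^ 2) =
      MvPolynomial.X i.succ ^ 2 := by rw [_root_.map_pow, h1]
    rw [h1, h2]

theorem Sq_ren (m a : ℕ) (g : S m) : Sq (m + 1) a (ren m g) = ren m (Sq m a g) := by
  rw [Sq_apply, PS_ren, Polynomial.coeff_map, Sq_apply]
  rfl

theorem Sq_zero' (m : ℕ) (g : S m) : Sq m 0 g = g := by
  induction g using MvPolynomial.induction_on with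
  | C a =>
    have e1 : (MvPolynomial.C a : S m) = algebraMap (ZMod 2) (S m) a := rfl
    rw [e1, Sq_apply, AlgHom.commutes, Polynomial.algebraMap_apply, Polynomial.coeff_C_zero]
  | add p q hp hq => rw [map_add, hp, hq]
  | mul_X p i hp =>
    rw [Sq_apply, map_mul, Polynomial.mul_coeff_zero, ← Sq_apply, hp, PS_X]
    simp

theorem Sq_X_mul_zero (m : ℕ) (g : S (m + 1)) :
    Sq (m + 1) 0 (MvPolynomial.X 0 * g) = MvPolynomial.X 0 * Sq (m + 1) 0 g := by
  rw [Sq_zero', Sq_zero']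

theorem Sq_X_mul (m a : ℕ) (g : S (m + 1)) :
    Sq (m + 1) (a + 1) (MvPolynomial.X 0 * g) = MvPolynomial.X 0 * Sq (m + 1) (a + 1) g +
      MvPolynomial.X 0 * (MvPolynomial.X 0 * Sq (m + 1) a g) := by
  rw [Sq_apply, map_mul, PS_X, add_mul, Polynomial.coeff_add, Polynomial.coeff_C_mul, mul_assoc,
    Polynomial.coeff_C_mul, Polynomial.coeff_X_mul, Sq_apply, Sq_apply]
  ring

theorem ren_hom {m q : ℕ} {g : S m} (hg : g.IsHomogeneous q) : (ren m g).IsHomogeneous q :=
  hg.rename_isHomogeneous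

namespace UStr

variable {B X : GrSq} (U : UStr B X)

theorem exists_div (q : ℕ) (x : X.H (q + 1)) :
    ∃ y, U.u q y = x - U.p.f (q + 1) (U.rs (q + 1) x) :=
  U.ex q _ (by rw [map_sub, U.rs_p, sub_self])

/-- division by `u`, as a function -/
def dvFun (q : ℕ) (x : X.H (q + 1)) : X.H q := (U.exists_div q x).choose

theorem u_dvFun (q : ℕ) (x : X.H (q + 1)) :
    U.u q (U.dvFun q x) = x - U.p.f (q + 1) (U.rs (q + 1) x) := (U.exists_div q x).choose_spec

/-- division by `u` -/
def dv (q : ℕ) : X.H (q + 1) →ₗ[ZMod 2] X.H q where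
  toFun := U.dvFun q
  map_add' x y := by
    apply U.u_inj q
    rw [map_add, u_dvFun, u_dvFun, u_dvFun, map_add, map_add]
    abel
  map_smul' r x := by
    apply U.u_inj q
    rw [map_smul, u_dvFun, RingHom.id_apply, u_dvFun, map_smul, map_smul, smul_sub]

theorem u_dv (q : ℕ) (x : X.H (q + 1)) :
    U.u q (U.dv q x) = x - U.p.f (q + 1) (U.rs (q + 1) x) := U.u_dvFun q x

theorem decomp (q : ℕ) (x : X.H (q + 1)) :
    x = U.u q (U.dv q x) + U.p.f (q + 1) (U.rs (q + 1) x) := by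
  rw [u_dv, sub_add_cancel]

theorem dv_u (q : ℕ) (x : X.H q) : U.dv q (U.u q x) = x := by
  apply U.u_inj q
  rw [u_dv, U.rs_u, map_zero, sub_zero]

theorem dv_p (q : ℕ) (b : B.H (q + 1)) : U.dv q (U.p.f (q + 1) b) = 0 := by
  apply U.u_inj q
  rw [u_dv, U.rs_p, sub_self, map_zero]

theorem decomp_zero (x : X.H 0) : x = U.p.f 0 (U.rs 0 x) := by
  rw [← sub_eq_zero]
  exact U.ex_zero _ (by rw [map_sub, U.rs_p, sub_self])

variable {m : ℕ} (f : ∀ q, B.H q →ₗ[ZMod 2] S m)

/-- the polynomial of a class of `X = B[u]` -/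
def polF : ∀ q, X.H q →ₗ[ZMod 2] S (m + 1)
  | 0 => (ren m).toLinearMap ∘ₗ f 0 ∘ₗ U.rs 0
  | q + 1 => (ren m).toLinearMap ∘ₗ f (q + 1) ∘ₗ U.rs (q + 1) +
      (LinearMap.mulLeft (ZMod 2) (MvPolynomial.X 0 : S (m + 1))) ∘ₗ polF q ∘ₗ U.dv q

theorem polF_zero (x : X.H 0) : U.polF f 0 x = ren m (f 0 (U.rs 0 x)) := rfl

theorem polF_succ (q : ℕ) (x : X.H (q + 1)) : U.polF f (q + 1) x =
    ren m (f (q + 1) (U.rs (q + 1) x)) + MvPolynomial.X 0 * U.polF f q (U.dv q x) := rfl

theorem polF_p (q : ℕ) (b : B.H q) : U.polF f q (U.p.f q b) = ren m (f q b) := by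
  cases q with
  | zero => rw [polF_zero, U.rs_p]
  | succ q => rw [polF_succ, U.rs_p, U.dv_p, map_zero, mul_zero, add_zero]

theorem polF_u (q : ℕ) (x : X.H q) :
    U.polF f (q + 1) (U.u q x) = MvPolynomial.X 0 * U.polF f q x := by
  rw [polF_succ, U.rs_u, U.dv_u, map_zero, map_zero, zero_add]

theorem polF_hom (hf : ∀ q b, (f q b).IsHomogeneous q) (q : ℕ) (x : X.H q) :
    (U.polF f q x).IsHomogeneous q := by
  induction q with
  | zero => exact ren_hom (hf 0 _)
  | succ q ih =>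
    rw [polF_succ]
    refine (ren_hom (hf _ _)).add ?_
    have := (MvPolynomial.isHomogeneous_X (ZMod 2) (0 : Fin (m + 1))).mul (ih (U.dv q x))
    rwa [add_comm 1 q] at this

theorem polF_sq (hf : ∀ q a j, q + a = j → ∀ b, f j (B.sq q j b) = Sq m a (f q b)) :
    ∀ q a j, q + a = j → ∀ x, U.polF f j (X.sq q j x) = Sq (m + 1) a (U.polF f q x) := by
  have hp : ∀ q a j, q + a = j → ∀ b, U.polF f j (X.sq q j (U.p.f q b)) =
      Sq (m + 1) a (U.polF f q (U.p.f q b)) := by
    intro q a j h b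
    rw [← U.p.nat, U.polF_p, U.polF_p, hf q a j h, Sq_ren]
  intro q
  induction q with
  | zero =>
    intro a j h x
    rw [U.decomp_zero x]
    exact hp 0 a j h _
  | succ q ih =>
    intro a j h x
    have key : U.polF f j (X.sq (q + 1) j (U.u q (U.dv q x))) =
        Sq (m + 1) a (U.polF f (q + 1) (U.u q (U.dv q x))) := by
      rw [U.polF_u]
      cases a with
      | zero =>
        obtain rfl : j = q + 1 := by omega
        rw [X.sq_self, U.polF_u, Sq_zero']
      | succ a =>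
        obtain ⟨i, rfl⟩ : ∃ i, j = i + 2 := ⟨q + a, by omega⟩
        obtain rfl : i = q + a := by omega
        rw [U.sq_u, map_add, U.polF_u, U.polF_u, U.polF_u, ih (a + 1) (q + a + 1) (by omega),
          ih a (q + a) rfl, Sq_X_mul]
    have key2 := hp (q + 1) a j h (U.rs (q + 1) x)
    conv_lhs => rw [U.decomp q x]
    conv_rhs => rw [U.decomp q x]
    rw [map_add, map_add, map_add, map_add, key, key2]

/-- multiplication by `u^k` -/
def upow : ∀ k q : ℕ, X.H q →ₗ[ZMod 2] X.H (q + k)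
  | 0, _ => LinearMap.id
  | k + 1, q => (U.u (q + k)).comp (upow k q)

theorem upow_zero (q : ℕ) (x : X.H q) : U.upow 0 q x = x := rfl

theorem upow_succ (k q : ℕ) (x : X.H q) : U.upow (k + 1) q x = U.u (q + k) (U.upow k q x) := rfl

theorem mu_pow_inc (k q : ℕ) (x : X.H q) :
    (U.mu ^ k) (X.inc q x) = X.inc (q + k) (U.upow k q x) := by
  induction k with
  | zero => rfl
  | succ k ih => rw [pow_succ', Module.End.mul_apply, ih, U.mu_inc]; rfl

theorem polF_upow (k q : ℕ) (x : X.H q) :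
    U.polF f (q + k) (U.upow k q x) = MvPolynomial.X 0 ^ k * U.polF f q x := by
  induction k with
  | zero => rw [pow_zero, one_mul]; rfl
  | succ k ih =>
    rw [upow_succ]
    change U.polF f (q + k + 1) _ = _
    rw [U.polF_u, ih, pow_succ']
    ring

/-- the value of `polF` on a class given in total form -/
theorem polF_tot {ι : Type*} (t : Finset ι) (n k : ι → ℕ) (b : ∀ i, B.H (n i)) {N : ℕ}
    (hN : ∀ i ∈ t, n i + k i = N) (z : X.H N)
    (hz : X.inc N z = ∑ i ∈ t, (U.mu ^ (k i)) (U.p.tot (B.inc (n i) (b i)))) :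
    U.polF f N z = ∑ i ∈ t, MvPolynomial.X 0 ^ (k i) * ren m (f (n i) (b i)) := by
  have e : ∀ i ∈ t, U.polF f N (((U.mu ^ (k i)) (U.p.tot (B.inc (n i) (b i)))) N) =
      MvPolynomial.X 0 ^ (k i) * ren m (f (n i) (b i)) := by
    intro i hi
    have h := hN i hi
    subst h
    rw [GrMap.tot_inc, U.mu_pow_inc, X.inc_same, U.polF_upow, U.polF_p]
  rw [← X.inc_same N z, hz, Finset.sum_apply, map_sum]
  exact Finset.sum_congr rfl e

end UStr

end Vale.Agent.P263.TW
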