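import Vale.Agent.P263.TW.PolGL
import Vale.Agent.P263.E.KunFin

/-!
# P263, [TW] / [H-FLAG] (helper354): multiplication by `u` on `H^*(BC2 × BV m)` is the product with
the class of the first coordinate
-/

noncomputable section

namespace Vale.Agent.P263.TW

open Vale.Agent.P263.S Vale.Agent.P263.E Vale.Agent.P263.TOP.H Vale.Agent.P263.EX.GE

theorem dp_single_left {m : ℕ} (k : Fin m) (y : VV m) : dp (Pi.single k 1) y = y k := by
  unfold dp
  rw [Finset.sum_eq_single k]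
  · rw [Pi.single_eq_same, one_mul]
  · intro j _ hj
    rw [Pi.single_eq_of_ne hj, zero_mul]
  · intro h
    exact absurd (Finset.mem_univ k) h

theorem cA_eq_iff (a b : ZMod 2) : cA a = cA b ↔ a + b = 0 := by
  show Multiplicative.ofAdd a = Multiplicative.ofAdd b ↔ _
  rw [Multiplicative.ofAdd.apply_eq_iff_eq]
  revert a b
  decide

/-- Multiplication by `u` is the product with the first coordinate. -/
theorem uT_eq_Lf (m q : ℕ) (z : (SS.F (ZMod 2) (SS.BV (m + 1))).H q) :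
    SS.uT (SS.BV m) q z = Lf (e0 m) q z := by
  obtain ⟨z, rfl⟩ := CosMod.cls_surjective _ q z
  obtain ⟨h, hL⟩ := Lf_cls (e0 m) q z
  refine Eq.trans ?_ hL.symm
  have hu : SS.uT (SS.BV m) q (CosMod.cls _ q z) =
      ((SS.ofT (R := ZMod 2) (SS.BV m)).mapH (q + 1)) ((hG _).cls (q + 1)
        ⟨uc idC (Act.triv C2 (SS.F (ZMod 2) (SS.BV m))) q ((SS.toT (SS.BV m)).app q z.1),
          uc_mem_Z idC _ ((SS.toT (SS.BV m)).app_mem_Z z.2)⟩) := rfl
  refine hu.trans ?_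
  rw [Hom.mapH_cls]
  refine congrArg ((SS.F (ZMod 2) (SS.BV (m + 1))).cls (q + 1)) (Subtype.ext ?_)
  funext x
  obtain ⟨s, rfl⟩ := BVmk_surjective (m + 1) x
  have e1 : (⇑(fr 1 (q + 1)) : Fin 2 → Fin (q + 2)) 0 = 0 := by
    apply Fin.ext
    show min 0 (q + 1) = 0
    omega
  have e2 : (⇑(fr 1 (q + 1)) : Fin 2 → Fin (q + 2)) 1 = 1 := by
    apply Fin.ext
    show min 1 (q + 1) = 1 % (q + 1 + 1)
    rw [Nat.mod_eq_of_lt (by omega)]
    omega
  have e3 : bk q (q + 1) = dl q 0 := by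
    apply OrderHom.ext
    funext i
    apply Fin.ext
    rw [dl_val]
    show min (i.1 + (q + 1 - q)) (q + 1) = _
    have := i.2
    simp
    omega
  show (hG.fn (uc idC (Act.triv C2 (SS.F (ZMod 2) (SS.BV m))) q ((SS.toT (SS.BV m)).app q z.1))
    (fun i => cA (s i 0)) : (SS.BV m).obj (q + 1) → ZMod 2) (BVmk m fun i j => s i j.succ) =
    cc (e0 m) ((SS.BV (m + 1)).map (fr 1 (q + 1)) (BVmk (m + 1) s)) *
      z.1 ((SS.BV (m + 1)).map (bk q (q + 1)) (BVmk (m + 1) s))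
  rw [BV_map_mk, BV_map_mk, cc_mk, e3, e0, dp_single_left, e1, e2, uc_fn]
  have e4 : (idC (cA (s 0 0)) = idC (cA (s 1 0))) ↔ (s 0 + s 1) 0 = 0 := cA_eq_iff _ _
  rcases (show (s 0 + s 1) 0 = 0 ∨ (s 0 + s 1) 0 = 1 by
    generalize (s 0 + s 1) 0 = a; revert a; decide) with h0 | h0
  · rw [if_pos (e4.2 h0), h0, zero_mul]
    rfl
  · rw [if_neg (fun h' => by rw [e4.1 h'] at h0; exact absurd h0 (by decide)), h0, one_mul]
    show z.1 ((SS.BC2.mk ((fun i => cA (s i 0)) ∘ ⇑(dl q 0)), (SS.BV m).map (dl q 0)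
      (BVmk m fun i j => s i j.succ)) : (SS.BC2.prod (SS.BV m)).obj q) = _
    rw [BV_map_mk]
    rfl

end Vale.Agent.P263.TW
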