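import Vale.Agent.P263.TW.Tower
import Vale.Agent.P263.TW.PolU

/-!
# P263, [TW] / [H-FLAG] (helper354): the structure `PolD` from the data of the tower
-/

noncomputable section

namespace Vale.Agent.P263.TW

open Vale.Agent.P263.S Vale.Agent.P263.E Vale.Agent.P263.TOP.H Vale.Agent.P263.EX.GE

/-- **`PolD` from `TData`**, if `V n` is the cohomology of `BV n` with its `u` and projection. -/
def TData.polD (T : TData)
    (e : ∀ n q, (SS.F (ZMod 2) (SS.BV n)).H q ≃ₗ[ZMod 2] (T.V n).H q)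
    (hu : ∀ n q (z : (SS.F (ZMod 2) (SS.BV (n + 1))).H q),
      e (n + 1) (q + 1) (SS.uT (SS.BV n) q z) = (T.vs n).u q (e (n + 1) q z))
    (hp : ∀ n q (b : (SS.F (ZMod 2) (SS.BV n)).H q),
      e (n + 1) q (pB n q b) = (T.vs n).p.f q (e n q b)) : PolD where
  pol m q := (T.pol m q).comp (e m q).toLinearMap
  pol_u m q z := by
    rw [← uT_eq_Lf]
    show T.pol (m + 1) (q + 1) (e (m + 1) (q + 1) (SS.uT (SS.BV m) q z)) = _
    rw [hu, T.pol_succ, UStr.polF_u]
    rfl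
  pol_p m q b := by
    show T.pol (m + 1) q (e (m + 1) q (pB m q b)) = _
    rw [hp, T.pol_succ, UStr.polF_p]
    rfl
  dec m q x := by
    refine ⟨(e (m + 1) q).symm ((T.vs m).dv q (e (m + 1) (q + 1) x)),
      (e m (q + 1)).symm ((T.vs m).rs (q + 1) (e (m + 1) (q + 1) x)), ?_⟩
    apply (e (m + 1) (q + 1)).injective
    rw [map_add, ← uT_eq_Lf]
    have h1 := hu m q ((e (m + 1) q).symm ((T.vs m).dv q (e (m + 1) (q + 1) x)))
    have h2 := hp m (q + 1) ((e m (q + 1)).symm ((T.vs m).rs (q + 1) (e (m + 1) (q + 1) x)))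
    rw [LinearEquiv.apply_symm_apply] at h1 h2
    refine ((T.vs m).decomp q (e (m + 1) (q + 1) x)).trans ?_
    rw [h1, h2]
  dec0 m x := by
    refine ⟨(e m 0).symm ((T.vs m).rs 0 (e (m + 1) 0 x)), ?_⟩
    apply (e (m + 1) 0).injective
    have h2 := hp m 0 ((e m 0).symm ((T.vs m).rs 0 (e (m + 1) 0 x)))
    rw [LinearEquiv.apply_symm_apply] at h2
    rw [h2]
    exact (T.vs m).decomp_zero _
  pt_succ q x := by
    apply (e 0 (q + 1)).injective
    rw [map_zero]
    exact T.V_pos _ (Nat.succ_pos q) _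

theorem TData.polD_pol (T : TData) (e : ∀ n q, (SS.F (ZMod 2) (SS.BV n)).H q ≃ₗ[ZMod 2] (T.V n).H q)
    (hu) (hp) (m q : ℕ) (z : (SS.F (ZMod 2) (SS.BV m)).H q) :
    (T.polD e hu hp).pol m q z = T.pol m q (e m q z) := rfl

end Vale.Agent.P263.TW
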