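import Vale.Agent.P263.TW.Model
import Vale.Agent.P263.TW.PolInst
import Vale.Agent.P263.TOP.H.FullFin

/-!
# P263, [TW] / [H] (helper354): `PolD` and `MData` of the tower model, `TopStmt towerModel`
-/

noncomputable section

namespace Vale.Agent.P263.TW

open Vale.Agent.P263.S Vale.Agent.P263.E Vale.Agent.P263.TOP.H Vale.Agent.P263.EX.GE
open Vale.Agent.P263.TOP

/-- the polynomials of the classes of `BV n` -/
def polD : PolD := data.polD (fun _ _ => LinearEquiv.refl (ZMod 2) _) (fun _ _ _ => rfl)
  (fun _ _ _ => rfl)

theorem mData : MData towerModel polD where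
  up n j q q' h y := towerModel_up n j q q' h y
  sq n a q q' h y := towerModel_sq n a q q' h y
  r n q y := towerModel_r n q y

theorem topStmt_towerModel : TopStmt towerModel := topStmt mData

end Vale.Agent.P263.TW
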