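import Vale.Agent.P263.TW.Model
import Vale.Agent.P263.TJ.RkM
import Vale.Agent.P263.TJ.CmpC
import Vale.Agent.P263.TI.Case2

/-!
# P263, block TW (helper689): the class `v^k` of `BW_1` and its polynomial

* `r_uZ` : `r (u x) = x_0 r(x)` for the classes `x` of `BW_(n+1)`.
* `vpowZ k` : the cocycle `v^k` of `BW_1 = BC_2`; `uZ_vpow` : `[v^(k+1)] = u [v^k]`.
* `r_vpow` : `r [v^k] = io (q_(1,0)^k)`.
* `cls_vpow` : `[v^k] = u^k P(1)`.
-/

noncomputable section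

namespace Vale.Agent.P263.TW

open Vale.Agent.P263.S Vale.Agent.P263.E Vale.Agent.P263.E.SS Vale.Agent.P263.TOP
open Vale.Agent.P263.TOP.H Vale.Agent.P263.TJ
open Vale.Agent.P263.LZ (q)
open Vale.Agent.P263.EX.GE (S io)

/-- `r (u x) = x_0 r(x)` -/
theorem TData.r_u (T : TData) (n q : ℕ) (x : (T.W (n + 1)).H q) :
    T.r (n + 1) (q + 1) ((T.step n).u q x) = MvPolynomial.X 0 * T.r (n + 1) q x := by
  rw [TData.r_apply, TData.r_apply, T.rho_succ, T.rho_succ, (T.step n).dg_u, T.fx_u,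
    TData.pol_succ, UStr.polF_u]
  rfl

/-- `r (u x) = x_0 r(x)` -/
theorem r_uZ (n q : ℕ) (x : Co (D2 (BW pt n)) q) :
    towerModel.T.r (n + 1) (q + 1) (uZ (BW pt n) q x) =
      MvPolynomial.X 0 * towerModel.T.r (n + 1) q x :=
  data.r_u n q x

theorem vpow_succ (k : ℕ) (s : Fin (k + 2) → C2) :
    vpow (k + 1) (k + 1) (BC2.mk s) =
      if s 0 = s 1 then 0 else vpow k k (BC2.mk (s ∘ dl k 0)) := by
  have h := cup_one_deg1 isDeg_vB (vpow k) (p := k) (BC2.mk s)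
  refine h.trans ?_
  have h1 : vB 1 (BC2.map (cl 1 (k + 1) id) (BC2.mk s)) = if s 0 = s 1 then 0 else 1 := by
    show (if s (cl 1 (k + 1) id 0) = s (cl 1 (k + 1) id (Fin.last 1)) then (0 : ZMod 2) else 1) = _
    rfl
  rw [h1]
  split_ifs
  · exact zero_mul _
  · exact one_mul _

/-- `v^k` is a cocycle -/
def vpowC (k : ℕ) : (SS.F (ZMod 2) (D2 pt)).obj k := fun x => vpow k k x

theorem toHG_vpow (k : ℕ) : (toHG pt).app (k + 1) (vpowC (k + 1)) =
    uc idC (swapF (ZMod 2) pt) k ((toHG pt).app k (vpowC k)) := by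
  refine hG.ext fun s => ?_
  funext x
  rw [toHG_fn, uc_fn]
  refine (vpow_succ k s).trans ?_
  show _ = (if s 0 = s 1 then (0 : (SS.F (ZMod 2) (pt.prod pt)).obj (k + 1)) else _) x
  split_ifs
  · rfl
  · rfl

theorem vpowC_mem (k : ℕ) : vpowC k ∈ (SS.F (ZMod 2) (D2 pt)).Z k := by
  induction k with
  | zero =>
    rw [CosMod.mem_Z]
    funext x
    rw [SS.F_d, Finset.sum_range_succ, Finset.sum_range_one]
    show sn 0 (1 : ZMod 2) + sn 1 (1 : ZMod 2) = 0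
    rw [S.sn_two, S.sn_two]
    rfl
  | succ k ih =>
    have h1 : uc idC (swapF (ZMod 2) pt) k ((toHG pt).app k (vpowC k)) ∈
        (hG (swapF (ZMod 2) pt)).Z (k + 1) := by
      refine uc_mem_Z _ _ ?_
      exact (toHG pt).app_mem_Z ih
    rw [← toHG_vpow] at h1
    have h2 := (ofHG pt).app_mem_Z h1
    rwa [ofHG_toHG] at h2

/-- the cocycle `v^k` -/
def vpowZ (k : ℕ) : (SS.F (ZMod 2) (D2 pt)).Z k := ⟨vpowC k, vpowC_mem k⟩

/-- the class `v^k` -/
def vcls (k : ℕ) : Co (D2 pt) k := (SS.F (ZMod 2) (D2 pt)).cls k (vpowZ k)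

theorem uZ_vpow (k : ℕ) : uZ pt k (vcls k) = vcls (k + 1) := by
  have h1 : (toHG pt).mapH (k + 1) (vcls (k + 1)) =
      uH idC (swapF (ZMod 2) pt) k ((toHG pt).mapH k (vcls k)) := by
    unfold vcls
    rw [Hom.mapH_cls, Hom.mapH_cls, uH_cls]
    exact congrArg _ (Subtype.ext (toHG_vpow k))
  rw [uZ_apply, ← h1, mapH_ofHG_toHG]

theorem r_vcls_zero : towerModel.T.r 1 0 (vcls 0) = 1 := by
  have h1 : ptEv (((secZ pt).pull (R := ZMod 2)).mapH 0 (((BV.dn 1).pull (R := ZMod 2)).mapH 0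
      (vcls 0))) = 1 := rfl
  show ren 0 (algebraMap (ZMod 2) _ (ptEv _)) = 1
  refine (congrArg (fun t => ren 0 (algebraMap (ZMod 2) _ t)) h1).trans ?_
  simp

/-- **The polynomial of `v^k`.** -/
theorem r_vpow (k : ℕ) : towerModel.T.r 1 k (vcls k) = io 1 (q 1 0 ^ k) := by
  rw [map_pow, TI.io_one_q]
  induction k with
  | zero => rw [pow_zero]; exact r_vcls_zero
  | succ k ih =>
    rw [← uZ_vpow, pow_succ', ← ih]
    exact r_uZ 0 k (vcls k)

theorem exists_vpow (k : ℕ) : ∃ w : towerModel.T.H 1 k,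
    towerModel.T.r 1 k w = io 1 (q 1 0 ^ k) ∧
      towerModel.e 1 k w = (SS.F (ZMod 2) (BW pt 1)).cls k (vpowZ k) :=
  ⟨vcls k, r_vpow k, rfl⟩

end Vale.Agent.P263.TW
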