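import Vale.Agent.P263.TW.Tot
import Vale.Agent.P263.TI.R1

/-!
# P263, block TW (helper689): one step of the tower, the squares of `u^j P(y)`

`BMq A` : the Bullett–Macdonald relations of a graded module with squares, in the form of
`S.SqAb` (helper915).  `D2Step B X W` : the data of `W = H^*(D_2 Y)`, `B = H^*(Y)`,
`X = H^*(BC_2 × Y) = B[u]`.  `sq_up` : `Sq^a (u^j P y) = Σ_b C(j+q-b, a-2b) u^(j+a-2b) P(Sq^b y)`.
-/

noncomputable section

namespace Vale.Agent.P263.TW

open Finset Polynomial Vale.Agent.P263.EX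

/-- the Bullett–Macdonald relations (form of `S.SqAb`) -/
def BMq (A : GrSq) : Prop :=
  ∀ (q N k : ℕ) (x : A.H q), ∑ a ∈ range (N + 1), ((BM.wt (ZMod 2) (N - a) a).coeff k) •
    A.sq (q + a) (q + N) (A.sq q (q + a) x) = 0

/-- the vector form on the total module -/
theorem bm_tot {A : GrSq} (h : BMq A) (q N k : ℕ) (x : A.H q) :
    ∑ a ∈ range (N + 1), ((BM.wt (ZMod 2) (N - a) a).coeff k) •
      A.s (N - a) (A.s a (A.inc q x)) = 0 := by
  have e : ∀ a ∈ range (N + 1), ((BM.wt (ZMod 2) (N - a) a).coeff k) •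
      A.s (N - a) (A.s a (A.inc q x)) = A.inc (q + N) (((BM.wt (ZMod 2) (N - a) a).coeff k) •
    A.sq (q + a) (q + N) (A.sq q (q + a) x)) := by
    intro a ha
    have ha' := mem_range.mp ha
    rw [A.s_inc, A.s_inc' (show q + a + (N - a) = q + N by omega), map_smul]
  rw [Finset.sum_congr rfl e, ← map_sum, h, map_zero]

open Vale.Agent.P263.TI in
/-- the `R_1` identity on the total module -/
theorem R1_tot {A : GrSq} (h : BMq A) (N q e a : ℕ) (x : A.H q) (he : q ≤ e) :
    ∑ i ∈ range (N + 1), ((bc (e - i) (N - i) a + bc (e - i) (2 * i) a : ℕ) : ZMod 2) •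
      A.s (N - i) (A.s i (A.inc q x)) = 0 := by
  rw [← Module.forall_dual_apply_eq_zero_iff (ZMod 2)]
  intro φ
  have hbm : ∑ i ∈ range (N + 1), C (φ (A.s (N - i) (A.s i (A.inc q x)))) *
      BM.wt (ZMod 2) (N - i) i = 0 := by
    ext j
    have h' := congrArg φ (bm_tot h q N j x)
    rw [map_zero, map_sum] at h'
    rw [finsetSum_coeff, coeff_zero, ← h']
    refine Finset.sum_congr rfl fun i _ => ?_
    rw [map_smul, coeff_C_mul, smul_eq_mul, mul_comm]
  have h3 := scalar_R1 N q e (fun i => φ (A.s (N - i) (A.s i (A.inc q x))))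
    (fun i hi => by
      show φ (A.s (N - i) (A.s i (A.inc q x))) = 0
      rw [A.s_inc_eq_zero hi, map_zero, map_zero]) he hbm
  have h2 := congrArg (fun p : (ZMod 2)[X] => p.coeff a) h3
  simp only [finsetSum_coeff, coeff_zero] at h2
  rw [map_sum, ← h2]
  refine Finset.sum_congr rfl fun i _ => ?_
  rw [map_smul, coeff_C_mul, mul_add, coeff_add, coeff_bc, coeff_bc, smul_eq_mul]
  push_cast
  ring

/-- multiplication operators on the total module -/
def muW (W : GrSq) (u : ∀ q, W.H q →ₗ[ZMod 2] W.H (q + 1)) : Module.End (ZMod 2) W.T where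
  toFun x j := match j with
    | 0 => 0
    | j + 1 => u j (x j)
  map_add' x y := by
    funext j
    cases j <;> simp
  map_smul' r x := by
    funext j
    cases j <;> simp

theorem muW_zero (W : GrSq) (u : ∀ q, W.H q →ₗ[ZMod 2] W.H (q + 1)) (x : W.T) :
    muW W u x 0 = 0 := rfl
theorem muW_succ (W : GrSq) (u : ∀ q, W.H q →ₗ[ZMod 2] W.H (q + 1)) (x : W.T) (j : ℕ) :
    muW W u x (j + 1) = u j (x j) := rfl

theorem muW_inc (W : GrSq) (u : ∀ q, W.H q →ₗ[ZMod 2] W.H (q + 1)) (q : ℕ) (x : W.H q) :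
    muW W u (W.inc q x) = W.inc (q + 1) (u q x) := by
  funext j
  cases j with
  | zero => rw [muW_zero, W.inc_of_ne (by omega)]
  | succ j =>
    rw [muW_succ]
    by_cases h : j = q
    · subst h
      rw [W.inc_same, W.inc_same]
    · rw [W.inc_of_ne h, W.inc_of_ne (by omega), map_zero]

/-- the `k`-fold multiplication on a homogeneous element is homogeneous -/
theorem muW_pow_inc (W : GrSq) (u : ∀ q, W.H q →ₗ[ZMod 2] W.H (q + 1)) (k q q' : ℕ)
    (h : k + q = q') (x : W.H q) :
    (muW W u ^ k) (W.inc q x) = W.inc q' (((muW W u ^ k) (W.inc q x)) q') := by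
  induction k generalizing q' with
  | zero =>
    obtain rfl : q' = q := by omega
    rw [pow_zero, Module.End.one_apply, W.inc_same]
  | succ k ih =>
    obtain ⟨r, rfl⟩ : ∃ r, q' = r + 1 := ⟨k + q, by omega⟩
    have e := ih r (by omega)
    rw [pow_succ', Module.End.mul_apply, e, muW_inc, W.inc_same]

/-- one step of the tower: `B = H^*(Y)`, `X = H^*(BC_2 × Y)`, `W = H^*(D_2 Y)` -/
structure D2Step (B X W : GrSq) where
  us : UStr B X
  /-- restriction to `BC_2 × Y` -/
  dg : GrMap W X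
  /-- the cohomology of `Y × Y` -/
  XX : GrSq
  /-- restriction to `Y × Y` -/
  rW : GrMap W XX
  u : ∀ q, W.H q →ₗ[ZMod 2] W.H (q + 1)
  dg_u : ∀ (q : ℕ) (w : W.H q), dg.f (q + 1) (u q w) = us.u q (dg.f q w)
  rW_u : ∀ (q : ℕ) (w : W.H q), rW.f (q + 1) (u q w) = 0
  exW : ∀ (q : ℕ) (z : W.H (q + 1)), rW.f (q + 1) z = 0 → ∃ w, u q w = z
  P : ∀ q, B.H q → W.H (q + q)
  P_add : ∀ (q : ℕ) (x y : B.H q), u (q + q) (P q (x + y)) = u (q + q) (P q x) + u (q + q) (P q y)
  /-- the restriction of `P y` is `Σ u^(q-i) Sq^i y` -/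
  dg_P : ∀ (q : ℕ) (y : B.H q), X.inc (q + q) (dg.f (q + q) (P q y)) =
    ∑ i ∈ range (q + 1), (us.mu ^ (q - i)) (us.p.tot (B.s i (B.inc q y)))
  /-- `H^*(D_2 Y)` is spanned by transfers and the `u^j P(y)` -/
  span : ∀ (m : ℕ) (w : W.H m), ∃ y : ∀ q, B.H q, W.inc (m + 1) (u m w) =
    ∑ q ∈ range (m / 2 + 1), (muW W u ^ (m + 1 - (q + q))) (W.inc (q + q) (P q (y q)))

namespace D2Step

variable {B X W : GrSq} (D : D2Step B X W)

/-- multiplication by `u` on the total module of `W` -/
abbrev mW : Module.End (ZMod 2) W.T := muW W D.u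

/-- `u^j P(y)` -/
def up (j q q' : ℕ) (_h : j + 2 * q = q') (y : B.H q) : W.H q' :=
  ((D.mW ^ j) (W.inc (q + q) (D.P q y))) q'

theorem inc_up (j q q' : ℕ) (h : j + 2 * q = q') (y : B.H q) :
    W.inc q' (D.up j q q' h y) = (D.mW ^ j) (W.inc (q + q) (D.P q y)) :=
  (muW_pow_inc W D.u j (q + q) q' (by omega) _).symm

theorem dg_mW (x : W.T) : D.dg.tot (D.mW x) = D.us.mu (D.dg.tot x) := by
  funext j
  cases j with
  | zero => rw [GrMap.tot_apply, muW_zero, map_zero, UStr.mu_zero]
  | succ j => rw [GrMap.tot_apply, muW_succ, D.dg_u, UStr.mu_succ, GrMap.tot_apply]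

theorem dg_mW_pow (k : ℕ) (x : W.T) : D.dg.tot ((D.mW ^ k) x) = (D.us.mu ^ k) (D.dg.tot x) := by
  induction k with
  | zero => rfl
  | succ k ih => rw [pow_succ', Module.End.mul_apply, dg_mW, ih, pow_succ', Module.End.mul_apply]

/-- `u^e St(x)`, the restriction of `u^j P(y)`, `e = j + q` -/
def stt (e q : ℕ) (y : B.H q) : X.T :=
  ∑ i ∈ range (q + 1), (D.us.mu ^ (e - i)) (D.us.p.tot (B.s i (B.inc q y)))

theorem dg_up_tot (j q : ℕ) (y : B.H q) :
    D.dg.tot ((D.mW ^ j) (W.inc (q + q) (D.P q y))) = D.stt (j + q) q y := by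
  rw [dg_mW_pow, GrMap.tot_inc, D.dg_P, map_sum, stt]
  refine Finset.sum_congr rfl fun i hi => ?_
  have := mem_range.mp hi
  rw [← Module.End.mul_apply, ← pow_add, show j + (q - i) = j + q - i by omega]

theorem up_add_tot (j q : ℕ) (hj : 1 ≤ j) (x y : B.H q) :
    (D.mW ^ j) (W.inc (q + q) (D.P q (x + y))) = (D.mW ^ j) (W.inc (q + q) (D.P q x)) +
      (D.mW ^ j) (W.inc (q + q) (D.P q y)) := by
  obtain ⟨j, rfl⟩ : ∃ k, j = k + 1 := ⟨j - 1, by omega⟩
  rw [pow_succ, Module.End.mul_apply, Module.End.mul_apply, Module.End.mul_apply, muW_inc,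
    muW_inc, muW_inc, D.P_add, map_add, map_add]

theorem up_add (j q q' : ℕ) (h : j + 2 * q = q') (x y : B.H q) (hj : 1 ≤ j) :
    D.up j q q' h (x + y) = D.up j q q' h x + D.up j q q' h y := by
  apply W.inc_injective q'
  rw [map_add, D.inc_up, D.inc_up, D.inc_up, D.up_add_tot j q hj]

/-- `dg` is injective on multiples of `u` -/
theorem inj_u (m : ℕ) (w : W.H m) (h : D.dg.f (m + 1) (D.u m w) = 0) : D.u m w = 0 := by
  obtain ⟨y, hy⟩ := D.span m w
  have h1 : ∑ q ∈ range (m / 2 + 1), D.stt (m + 1 - (q + q) + q) q (y q) = 0 := by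
    have := congrArg D.dg.tot hy
    rw [GrMap.tot_inc, h, map_zero, map_sum] at this
    rw [this]
    exact Finset.sum_congr rfl fun q _ => (D.dg_up_tot _ _ _).symm
  -- collect by total degree
  have h2 : ∑ t ∈ range (m + 2), (D.us.mu ^ t) (D.us.p.tot
      (∑ q ∈ range (m / 2 + 1), if q ≤ m + 1 - t ∧ m + 1 - t ≤ q + q then
        B.s (m + 1 - t - q) (B.inc q (y q)) else 0)) = 0 := by
    rw [← h1]
    have e : ∀ q ∈ range (m / 2 + 1), D.stt (m + 1 - (q + q) + q) q (y q) =
        ∑ t ∈ range (m + 2), (D.us.mu ^ t) (D.us.p.tot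
          (if q ≤ m + 1 - t ∧ m + 1 - t ≤ q + q then
            B.s (m + 1 - t - q) (B.inc q (y q)) else 0)) := by
      intro q hq
      have hq' := mem_range.mp hq
      rw [stt]
      have hsub : ∑ t ∈ range (m + 2), (D.us.mu ^ t) (D.us.p.tot
          (if q ≤ m + 1 - t ∧ m + 1 - t ≤ q + q then
            B.s (m + 1 - t - q) (B.inc q (y q)) else 0)) =
          ∑ t ∈ (range (m + 2)).filter (fun t => q ≤ m + 1 - t ∧ m + 1 - t ≤ q + q),
            (D.us.mu ^ t) (D.us.p.tot (B.s (m + 1 - t - q) (B.inc q (y q)))) := by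
        rw [Finset.sum_filter]
        refine Finset.sum_congr rfl fun t _ => ?_
        split_ifs
        · rfl
        · rw [map_zero, map_zero]
      rw [hsub]
      refine Finset.sum_nbij' (fun i => m + 1 - q - i) (fun t => m + 1 - t - q) ?_ ?_ ?_ ?_ ?_
      · intro i hi
        have := mem_range.mp hi
        rw [mem_filter, mem_range]
        omega
      · intro t ht
        rw [mem_filter, mem_range] at ht
        rw [mem_range]
        omega
      · intro i hi
        have := mem_range.mp hi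
        omega
      · intro t ht
        rw [mem_filter, mem_range] at ht
        omega
      · intro i hi
        have := mem_range.mp hi
        rw [show m + 1 - (q + q) + q - i = m + 1 - q - i by omega,
          show m + 1 - (m + 1 - q - i) - q = i by omega]
    rw [Finset.sum_congr rfl e, Finset.sum_comm]
    refine Finset.sum_congr rfl fun t _ => ?_
    rw [map_sum, map_sum]
  have h3 := D.us.indep (m + 2) _ h2
  -- all y q vanish
  have h4 : ∀ q, q ≤ m / 2 → y q = 0 := by
    intro q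
    induction q using Nat.strong_induction_on with
    | _ q ih =>
      intro hq
      have h5 := h3 (m + 1 - q) (by omega)
      rw [show m + 1 - (m + 1 - q) = q by omega] at h5
      rw [Finset.sum_eq_single q] at h5
      · rw [if_pos (by omega), Nat.sub_self, B.s_zero] at h5
        apply B.inc_injective q
        rw [h5, map_zero]
      · intro r hr hrq
        have := mem_range.mp hr
        by_cases hrq' : r ≤ q ∧ q ≤ r + r
        · rw [if_pos hrq', ih r (by omega) (by omega), map_zero, map_zero]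
        · rw [if_neg hrq']
      · intro h6
        exact absurd (mem_range.mpr (by omega)) h6
  apply W.inc_injective (m + 1)
  rw [hy, map_zero]
  refine Finset.sum_eq_zero fun q hq => ?_
  have hq' := mem_range.mp hq
  rw [h4 q (by omega)]
  -- `u P(0) = 0`
  have h7 := D.up_add_tot (m + 1 - (q + q)) q (by omega) 0 0
  rw [add_zero] at h7
  exact (left_eq_add.mp h7)

end D2Step

end Vale.Agent.P263.TW
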