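import Mathlib
import Vale.Agent.P263.TI.R1

/-!
# P263, block TW (helper689): graded modules with Steenrod squares, total form

`GrSq` : graded `F_2`-vector spaces with operations `sq q j : H q → H j` (`= Sq^(j-q)`).
`A.T = ∏ q, A.H q` and `A.s a : End A.T` is the total form of `Sq^a` (no index arithmetic).
`UStr B X` : `X = B[u]`, the cohomology of `BC_2 × Y` over the cohomology of `Y`.
-/

noncomputable section

namespace Vale.Agent.P263.TW

open Finset

/-- graded vector spaces with Steenrod squares, `sq q j = Sq^(j-q)` -/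
structure GrSq where
  H : ℕ → Type
  [acg : ∀ q, AddCommGroup (H q)]
  [mod : ∀ q, Module (ZMod 2) (H q)]
  sq : ∀ q j : ℕ, H q →ₗ[ZMod 2] H j
  sq_self : ∀ (q : ℕ) (x : H q), sq q q x = x
  sq_lt : ∀ (q j : ℕ) (x : H q), j < q → sq q j x = 0
  sq_gt : ∀ (q j : ℕ) (x : H q), 2 * q < j → sq q j x = 0

attribute [instance] GrSq.acg GrSq.mod

namespace GrSq

variable (A : GrSq)

/-- the total module -/
abbrev T : Type := ∀ q, A.H q

/-- the inclusion of the component of degree `q` -/
def inc (q : ℕ) : A.H q →ₗ[ZMod 2] A.T := LinearMap.single (ZMod 2) A.H q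

theorem inc_same (q : ℕ) (x : A.H q) : A.inc q x q = x := Pi.single_eq_same q x

theorem inc_of_ne {q j : ℕ} (h : j ≠ q) (x : A.H q) : A.inc q x j = 0 :=
  Pi.single_eq_of_ne h x

theorem inc_injective (q : ℕ) : Function.Injective (A.inc q) := by
  intro x y h
  rw [← A.inc_same q x, h, A.inc_same]

/-- `Sq^a` on the total module -/
def s (a : ℕ) : Module.End (ZMod 2) A.T where
  toFun x j := if a ≤ j then A.sq (j - a) j (x (j - a)) else 0
  map_add' x y := by
    funext j
    by_cases h : a ≤ j <;> simp [h]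
  map_smul' r x := by
    funext j
    by_cases h : a ≤ j <;> simp [h]

theorem s_apply (a j : ℕ) (x : A.T) :
    A.s a x j = if a ≤ j then A.sq (j - a) j (x (j - a)) else 0 := rfl

theorem s_apply_add (a j : ℕ) (x : A.T) : A.s a x (j + a) = A.sq j (j + a) (x j) := by
  rw [s_apply, if_pos (Nat.le_add_left a j)]
  congr 1
  · rw [Nat.add_sub_cancel]
  all_goals rw [Nat.add_sub_cancel]

theorem s_inc (a q : ℕ) (x : A.H q) :
    A.s a (A.inc q x) = A.inc (q + a) (A.sq q (q + a) x) := by
  funext j
  by_cases h : j = q + a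
  · subst h
    rw [s_apply_add, inc_same, inc_same]
  · rw [A.inc_of_ne h, s_apply]
    split_ifs with h1
    · rw [A.inc_of_ne (by omega), map_zero]
    · rfl

theorem s_inc' {a q j : ℕ} (h : q + a = j) (x : A.H q) :
    A.s a (A.inc q x) = A.inc j (A.sq q j x) := by
  subst h
  exact A.s_inc a q x

theorem s_zero (x : A.T) : A.s 0 x = x := by
  funext j
  exact A.sq_self j (x j)

theorem s_inc_eq_zero {a q : ℕ} (h : q < a) (x : A.H q) : A.s a (A.inc q x) = 0 := by
  rw [s_inc, A.sq_gt _ _ _ (by omega), map_zero]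

theorem sum_inc_apply {ι : Type*} (t : Finset ι) (q : ℕ) (f : ι → A.H q) :
    A.inc q (∑ i ∈ t, f i) = ∑ i ∈ t, A.inc q (f i) := map_sum _ _ _

end GrSq

/-- maps compatible with the squares -/
structure GrMap (A B : GrSq) where
  f : ∀ q, A.H q →ₗ[ZMod 2] B.H q
  nat : ∀ (q j : ℕ) (x : A.H q), f j (A.sq q j x) = B.sq q j (f q x)

namespace GrMap

variable {A B : GrSq} (g : GrMap A B)

/-- the total form -/
def tot : A.T →ₗ[ZMod 2] B.T where
  toFun x q := g.f q (x q)
  map_add' x y := by funext q; simp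
  map_smul' r x := by funext q; simp

theorem tot_apply (x : A.T) (q : ℕ) : g.tot x q = g.f q (x q) := rfl

theorem tot_inc (q : ℕ) (x : A.H q) : g.tot (A.inc q x) = B.inc q (g.f q x) := by
  funext j
  by_cases h : j = q
  · subst h
    rw [tot_apply, A.inc_same, B.inc_same]
  · rw [tot_apply, A.inc_of_ne h, B.inc_of_ne h, map_zero]

theorem tot_s (a : ℕ) (x : A.T) : g.tot (A.s a x) = B.s a (g.tot x) := by
  funext j
  rw [tot_apply, A.s_apply, B.s_apply]
  split_ifs
  · rw [g.nat, tot_apply]
  · rw [map_zero]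

end GrMap

/-- `X = B[u]` -/
structure UStr (B X : GrSq) where
  p : GrMap B X
  rs : ∀ q, X.H q →ₗ[ZMod 2] B.H q
  u : ∀ q, X.H q →ₗ[ZMod 2] X.H (q + 1)
  rs_p : ∀ (q : ℕ) (b : B.H q), rs q (p.f q b) = b
  rs_u : ∀ (q : ℕ) (x : X.H q), rs (q + 1) (u q x) = 0
  u_inj : ∀ q, Function.Injective (u q)
  ex : ∀ (q : ℕ) (x : X.H (q + 1)), rs (q + 1) x = 0 → ∃ y, u q y = x
  ex_zero : ∀ x : X.H 0, rs 0 x = 0 → x = 0
  sq_u : ∀ (q j : ℕ) (x : X.H q), X.sq (q + 1) (j + 2) (u q x) =
    u (j + 1) (X.sq q (j + 1) x) + u (j + 1) (u j (X.sq q j x))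

namespace UStr

variable {B X : GrSq} (U : UStr B X)

/-- multiplication by `u` on the total module -/
def mu : Module.End (ZMod 2) X.T where
  toFun x j := match j with
    | 0 => 0
    | j + 1 => U.u j (x j)
  map_add' x y := by
    funext j
    cases j <;> simp
  map_smul' r x := by
    funext j
    cases j <;> simp

theorem mu_zero (x : X.T) : U.mu x 0 = 0 := rfl
theorem mu_succ (x : X.T) (j : ℕ) : U.mu x (j + 1) = U.u j (x j) := rfl

theorem mu_inc (q : ℕ) (x : X.H q) : U.mu (X.inc q x) = X.inc (q + 1) (U.u q x) := by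
  funext j
  cases j with
  | zero => rw [mu_zero, X.inc_of_ne (by omega)]
  | succ j =>
    rw [mu_succ]
    by_cases h : j = q
    · subst h
      rw [X.inc_same, X.inc_same]
    · rw [X.inc_of_ne h, X.inc_of_ne (by omega), map_zero]

theorem mu_injective : Function.Injective U.mu := by
  intro x y h
  funext j
  have := congrFun h (j + 1)
  exact U.u_inj j this

/-- the restriction on the total module -/
def rst : X.T →ₗ[ZMod 2] B.T where
  toFun x q := U.rs q (x q)
  map_add' x y := by funext q; simp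
  map_smul' r x := by funext q; simp

theorem rst_apply (x : X.T) (q : ℕ) : U.rst x q = U.rs q (x q) := rfl

theorem rst_mu (x : X.T) : U.rst (U.mu x) = 0 := by
  funext j
  cases j with
  | zero => rw [rst_apply, mu_zero, map_zero]; rfl
  | succ j => rw [rst_apply, mu_succ, U.rs_u]; rfl

theorem rst_p (b : B.T) : U.rst (U.p.tot b) = b := by
  funext j
  rw [rst_apply, GrMap.tot_apply, U.rs_p]

theorem s_mu_zero (x : X.T) : X.s 0 (U.mu x) = U.mu (X.s 0 x) := by
  rw [X.s_zero, X.s_zero]

/-- the Cartan formula for `u` -/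
theorem s_mu (a : ℕ) (x : X.T) :
    X.s (a + 1) (U.mu x) = U.mu (X.s (a + 1) x) + U.mu (U.mu (X.s a x)) := by
  funext j
  rw [Pi.add_apply, X.s_apply]
  rcases j with _ | j
  · rw [if_neg (by omega), mu_zero, mu_zero, add_zero]
  rw [mu_succ, mu_succ]
  rcases j with _ | j
  · rw [mu_zero, map_zero, add_zero, X.s_apply]
    by_cases h : a = 0
    · subst h
      rw [if_pos (by omega), if_neg (by omega), map_zero]
      change X.sq 0 1 (U.mu x 0) = 0
      rw [mu_zero, map_zero]
    · rw [if_neg (by omega), if_neg (by omega), map_zero]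
  rw [mu_succ, X.s_apply, X.s_apply]
  by_cases h : a ≤ j
  · obtain ⟨k, rfl⟩ : ∃ k, j = k + a := ⟨j - a, by omega⟩
    rw [if_pos (by omega), if_pos (by omega), if_pos (by omega)]
    have e1 : k + a + 1 + 1 - (a + 1) = k + 1 := by omega
    have e2 : k + a + 1 - (a + 1) = k := by omega
    have e3 : k + a - a = k := by omega
    rw [e1, e2, e3, mu_succ, U.sq_u]
  · rw [if_neg h, map_zero, map_zero, add_zero]
    by_cases h2 : a = j + 1
    · subst h2
      rw [if_pos (by omega), if_neg (by omega), map_zero]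
      have e1 : j + 1 + 1 - (j + 1 + 1) = 0 := by omega
      rw [e1, mu_zero, map_zero]
    · rw [if_neg (by omega), if_neg (by omega), map_zero]

theorem s_p (a : ℕ) (b : B.T) : X.s a (U.p.tot b) = U.p.tot (B.s a b) := (U.p.tot_s a b).symm

/-- the Cartan formula for powers of `u` -/
theorem s_mu_pow (m a : ℕ) (x : X.T) : X.s a ((U.mu ^ m) x) =
    ∑ k ∈ range (a + 1), ((m.choose k : ℕ) : ZMod 2) • (U.mu ^ (m + k)) (X.s (a - k) x) := by
  induction m generalizing a with
  | zero =>
    rw [Finset.sum_range_succ', Finset.sum_eq_zero]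
    · simp
    · intro k _
      rw [Nat.choose_zero_succ, Nat.cast_zero, zero_smul]
  | succ m ih =>
    have e0 : ∀ y : X.T, (U.mu ^ (m + 1)) y = U.mu ((U.mu ^ m) y) := fun y => by
      rw [pow_succ', Module.End.mul_apply]
    rw [e0]
    cases a with
    | zero =>
      rw [s_mu_zero, ih, Finset.sum_range_one, Finset.sum_range_one]
      simp only [Nat.choose_zero_right, Nat.cast_one, one_smul, add_zero, Nat.sub_self]
      rw [e0]
    | succ a =>
      rw [s_mu, ih, ih, map_sum, map_sum, map_sum]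
      have e1 : ∀ k, U.mu (((m.choose k : ℕ) : ZMod 2) • (U.mu ^ (m + k)) (X.s (a + 1 - k) x)) =
          ((m.choose k : ℕ) : ZMod 2) • (U.mu ^ (m + 1 + k)) (X.s (a + 1 - k) x) := fun k => by
        rw [map_smul, show m + 1 + k = m + k + 1 by ring, pow_succ' U.mu (m + k),
          Module.End.mul_apply]
      have e2 : ∀ k, U.mu (U.mu (((m.choose k : ℕ) : ZMod 2) • (U.mu ^ (m + k)) (X.s (a - k) x))) =
          ((m.choose k : ℕ) : ZMod 2) • (U.mu ^ (m + 1 + (k + 1))) (X.s (a + 1 - (k + 1)) x) :=
        fun k => by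
        rw [map_smul, map_smul, show m + 1 + (k + 1) = m + k + 1 + 1 by ring,
          pow_succ' U.mu (m + k + 1), pow_succ' U.mu (m + k), Module.End.mul_apply,
          Module.End.mul_apply, Nat.add_sub_add_right]
      rw [Finset.sum_congr rfl fun k _ => e1 k, Finset.sum_congr rfl fun k _ => e2 k,
        Finset.sum_range_succ', Finset.sum_range_succ' (fun k => (((m + 1).choose k : ℕ) : ZMod 2) •
          (U.mu ^ (m + 1 + k)) (X.s (a + 1 - k) x)), Nat.choose_zero_right, Nat.choose_zero_right,
        add_right_comm, ← Finset.sum_add_distrib]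
      congr 1
      refine Finset.sum_congr rfl fun k _ => ?_
      rw [← add_smul, Nat.choose_succ_succ, Nat.cast_add, add_comm]

/-- independence of the powers of `u` -/
theorem indep (K : ℕ) (b : ℕ → B.T)
    (h : ∑ k ∈ range K, (U.mu ^ k) (U.p.tot (b k)) = 0) (k : ℕ) (hk : k < K) : b k = 0 := by
  induction K generalizing b k with
  | zero => omega
  | succ K ih =>
    rw [Finset.sum_range_succ'] at h
    have e : ∑ k ∈ range K, (U.mu ^ (k + 1)) (U.p.tot (b (k + 1))) =
        U.mu (∑ k ∈ range K, (U.mu ^ k) (U.p.tot (b (k + 1)))) := by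
      rw [map_sum]
      refine Finset.sum_congr rfl fun k _ => ?_
      rw [pow_succ', Module.End.mul_apply]
    rw [e] at h
    have h0 : b 0 = 0 := by
      have := congrArg U.rst h
      rw [map_add, rst_mu, zero_add, map_zero] at this
      rw [pow_zero, Module.End.one_apply, rst_p] at this
      exact this
    rw [h0, map_zero, map_zero, add_zero] at h
    have h1 := U.mu_injective (h.trans (map_zero U.mu).symm)
    cases k with
    | zero => exact h0
    | succ k => exact ih (fun k => b (k + 1)) h1 k (by omega)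

end UStr

end Vale.Agent.P263.TW
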